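import Vale.Agent.P240.R2.H195.Heis

/-!
Heisenberg root subgroups of a group of matrices: the form used for unitary groups.
-/

namespace Vale.Agent.P240.H195

/-- Pairs `(a, b)` with `b + σ b = a σ a`. -/
def Hei {F : Type*} [Field F] (σ : F ≃+* F) : Type _ := {q : F × F // q.2 + σ q.2 = q.1 * σ q.1}

section
variable {F : Type*} [Field F]

lemma exists_fixed_ne [Finite F] {σ : F ≃+* F} (hσ : ∀ x, σ (σ x) = x) (hne : ∃ x, σ x ≠ x)
    (hc : Nat.card F ≠ 4) : ∃ k, σ k = k ∧ k ≠ 0 ∧ k ≠ 1 := by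
  classical
  by_contra hcon
  push Not at hcon
  obtain ⟨w, hw⟩ := hne
  apply hc
  have h01 : ∀ k, σ k = k → k = 0 ∨ k = 1 := fun k hk => by
    by_cases h0 : k = 0
    · exact Or.inl h0
    · exact Or.inr (hcon k hk h0)
  have hd : w - σ w ≠ 0 := sub_ne_zero.2 (Ne.symm hw)
  have hall : ∀ r : F, r ∈ ({0, 1, w, w + 1} : Finset F) := by
    intro r
    set k₂ := (r - σ r) / (w - σ w) with hk₂
    set k₁ := r - k₂ * w with hk₁
    have h2 : σ k₂ = k₂ := by
      rw [hk₂, map_div₀, map_sub, map_sub, hσ, hσ, div_eq_div_iff (by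
        rw [← neg_sub]; exact neg_ne_zero.2 hd) hd]
      ring
    have h3 : k₂ * (w - σ w) = r - σ r := by rw [hk₂, div_mul_cancel₀ _ hd]
    have h1 : σ k₁ = k₁ := by
      rw [hk₁, map_sub, map_mul, h2]
      linear_combination h3
    have e1 : r = k₁ + k₂ * w := by rw [hk₁]; ring
    simp only [Finset.mem_insert, Finset.mem_singleton]
    rcases h01 k₁ h1 with h4 | h4 <;> rcases h01 k₂ h2 with h5 | h5 <;> rw [h4, h5] at e1
    · left; rw [e1]; ring
    · right; right; left; rw [e1]; ring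
    · right; left; rw [e1]; ring
    · right; right; right; rw [e1]; ring
  have hw0 : w ≠ 0 := by rintro rfl; exact hw (map_zero σ)
  have hw1 : w ≠ 1 := by rintro rfl; exact hw (map_one σ)
  have hw2 : w + 1 ≠ 0 := by
    intro h
    apply hw
    rw [eq_neg_of_add_eq_zero_left h, map_neg, map_one]
  have : Fintype F := Fintype.ofFinite F
  rw [Nat.card_eq_fintype_card, ← Finset.card_univ, ← Finset.eq_univ_iff_forall.2 hall,
    Finset.card_insert_of_notMem, Finset.card_insert_of_notMem, Finset.card_insert_of_notMem,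
    Finset.card_singleton]
  · simp
  · simp only [Finset.mem_insert, Finset.mem_singleton, not_or]
    refine ⟨Ne.symm hw1, fun h => hw0 ?_⟩
    linear_combination -h
  · simp only [Finset.mem_insert, Finset.mem_singleton, not_or]
    exact ⟨zero_ne_one, Ne.symm hw0, Ne.symm hw2⟩

/-- Automorphisms `f` with `f ^ p = 1` that stabilize a Heisenberg subgroup and centralize a torus
centralize the Heisenberg subgroup. -/
theorem hei_fix [Finite F] {σ : F ≃+* F} (hs : ∀ x, σ (σ x) = x) (hne : ∃ x, σ x ≠ x)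
    {p : ℕ} [hp : Fact p.Prime] [CharP F p] {M : Type*} [Group M] (x : Hei σ → M)
    (hinj : Function.Injective x)
    (hmul : ∀ q r s : Hei σ, s.1.1 = q.1.1 + r.1.1 → s.1.2 = q.1.2 + r.1.2 + σ q.1.1 * r.1.1 →
      x q * x r = x s)
    (W : Set F) (hW : (∀ w, w ≠ 0 → w ∈ W) ∨ ((∀ u, u ≠ 0 → u ^ 2 * (σ u)⁻¹ ∈ W) ∧ Nat.card F ≠ 4))
    (f : MulAut M) (hf : f ^ p = 1) (hfx : ∀ q, ∃ r, f (x q) = x r)
    (hT : ∀ w ∈ W, ∃ t, f t = t ∧ ∀ q r : Hei σ, r.1.1 = w * q.1.1 → r.1.2 = w * σ w * q.1.2 →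
      t * x q * t⁻¹ = x r) : ∀ q, f (x q) = x q := by
  have hone : x ⟨(0, 0), by simp⟩ = 1 := by
    have := hmul ⟨(0, 0), by simp⟩ ⟨(0, 0), by simp⟩ ⟨(0, 0), by simp⟩ (by simp) (by simp)
    exact mul_eq_left.1 this
  have hM : ∀ q r : Hei σ, ∃ s : Hei σ, s.1.1 = q.1.1 + r.1.1 ∧
      s.1.2 = q.1.2 + r.1.2 + σ q.1.1 * r.1.1 := by
    intro q r
    refine ⟨⟨(q.1.1 + r.1.1, q.1.2 + r.1.2 + σ q.1.1 * r.1.1), ?_⟩, rfl, rfl⟩
    have h1 := q.2
    have h2 := r.2
    simp only [map_add, map_mul, hs]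
    linear_combination h1 + h2
  let X : Subgroup M :=
    { carrier := Set.range x
      one_mem' := ⟨_, hone⟩
      mul_mem' := by
        rintro _ _ ⟨q, rfl⟩ ⟨r, rfl⟩
        obtain ⟨s, h1, h2⟩ := hM q r
        exact ⟨s, (hmul q r s h1 h2).symm⟩
      inv_mem' := by
        rintro _ ⟨q, rfl⟩
        have h1 := q.2
        have hr : σ q.1.2 + σ (σ q.1.2) = -q.1.1 * σ (-q.1.1) := by
          rw [hs, map_neg]
          linear_combination h1
        refine ⟨⟨(-q.1.1, σ q.1.2), hr⟩, ?_⟩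
        rw [eq_comm, inv_eq_iff_mul_eq_one, ← hone]
        refine hmul _ _ _ (by simp) ?_
        simp only
        linear_combination -h1 }
  have hX : ∀ y : X, ∃ q, x q = y := fun y => y.2
  choose c hc using hX
  have hcx : ∀ q (h : x q ∈ X), c ⟨x q, h⟩ = q := fun q h => hinj (hc _)
  have hXf : ∀ y ∈ X, f y ∈ X := by
    rintro _ ⟨q, rfl⟩
    obtain ⟨r, hr⟩ := hfx q
    exact ⟨r, hr.symm⟩
  have : Finite (Hei σ) := by unfold Hei; infer_instance
  have : Finite X := Finite.of_surjective (fun q : Hei σ => (⟨x q, ⟨q, rfl⟩⟩ : X)) fun y =>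
    ⟨c y, Subtype.ext (hc y)⟩
  let f₀ : X →* X := (f.toMonoidHom.comp X.subtype).codRestrict X fun y => hXf y y.2
  have hf₀ : ∀ y : X, (f₀ y : M) = f y := fun y => rfl
  have hf₀i : Function.Injective f₀ := fun y z h => Subtype.ext (f.injective (by
    rw [← hf₀, ← hf₀, h]))
  let f₁ : MulAut X := MulEquiv.ofBijective f₀ ⟨hf₀i, Finite.surjective_of_injective hf₀i⟩
  have hf₁ : ∀ y : X, (f₁ y : M) = f y := fun y => rfl
  have hf₁k : ∀ k : ℕ, ∀ y : X, ((f₁ ^ k) y : M) = (f ^ k) y := by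
    intro k
    induction k with
    | zero => intro y; rfl
    | succ k ih =>
      intro y
      rw [pow_succ', pow_succ', MulAut.mul_apply, MulAut.mul_apply, hf₁, ih]
  have hf₁p : f₁ ^ p = 1 := by
    ext y
    rw [hf₁k, hf]
    rfl
  have hcf : ∀ y : X, x (c (f₁ y)) = f (x (c y)) := fun y => by rw [hc, hc, hf₁]
  have key : f₁ = 1 := by
    refine heis_rigid (p := p) (σ := σ) (X := X) (α := fun y => (c y).1.1)
      (β := fun y => (c y).1.2) (ε := 1) hs hne one_ne_zero (map_one σ) ?_ ?_ ?_ ?_ (Or.inr ?_)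
      (W := W) ?_ ?_ ?_ hf₁p
    · intro y z h1 h2
      have : c y = c z := Subtype.ext (Prod.ext h1 h2)
      exact Subtype.ext (by rw [← hc, ← hc, this])
    · intro y
      rw [one_mul]
      exact (c y).2
    · intro a b hab
      rw [one_mul] at hab
      have h1 := hcx ⟨(a, b), hab⟩ ⟨_, rfl⟩
      exact ⟨⟨x ⟨(a, b), hab⟩, ⟨_, rfl⟩⟩, congrArg (fun q : Hei σ => q.1.1) h1,
        congrArg (fun q : Hei σ => q.1.2) h1⟩
    · intro y z
      obtain ⟨s, h1, h2⟩ := hM (c y) (c z)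
      have h3 := hmul _ _ s h1 h2
      rw [hc, hc] at h3
      have h4 : c (y * z) = s := hinj (by rw [hc, ← h3]; rfl)
      simp only [h4, h1]
    · intro y z
      obtain ⟨s, h1, h2⟩ := hM (c y) (c z)
      have h3 := hmul _ _ s h1 h2
      rw [hc, hc] at h3
      have h4 : c (y * z) = s := hinj (by rw [hc, ← h3]; rfl)
      simp only [h4, h2, one_mul]
    · intro t ht
      rcases hW with hW | hW
      · exact hW _ (div_ne_zero (pow_ne_zero 2 ht)
          (by rwa [Ne, map_eq_zero_iff σ σ.injective]))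
      · rw [div_eq_mul_inv]
        exact hW.1 t ht
    · rcases hW with hW | hW
      · right
        intro t ht
        exact hW _ (div_ne_zero ht (by rwa [Ne, map_eq_zero_iff σ σ.injective]))
      · exact Or.inl (exists_fixed_ne hs hne hW.2)
    · intro w hw y z h1 h2
      obtain ⟨t, ht, htx⟩ := hT w hw
      have h3 := htx (c y) (c z) h1 h2
      have hr : w * σ w * (c (f₁ y)).1.2 + σ (w * σ w * (c (f₁ y)).1.2) =
          w * (c (f₁ y)).1.1 * σ (w * (c (f₁ y)).1.1) := by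
        have h4 := (c (f₁ y)).2
        simp only [map_mul, hs]
        linear_combination (w * σ w) * h4
      have h4 := htx (c (f₁ y)) ⟨(w * (c (f₁ y)).1.1, w * σ w * (c (f₁ y)).1.2), hr⟩ rfl rfl
      have h5 : c (f₁ z) = ⟨(w * (c (f₁ y)).1.1, w * σ w * (c (f₁ y)).1.2), hr⟩ := by
        apply hinj
        rw [← h4, hcf, hcf, ← h3, map_mul, map_mul, map_inv, ht]
      simp only [h5, and_self]
  intro q
  have h1 := congrArg (fun g : MulAut X => ((g ⟨x q, ⟨q, rfl⟩⟩ : X) : M)) key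
  exact h1

end

end Vale.Agent.P240.H195
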