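import Vale.Agent.P240.R2.H195.NotA
import Vale.Agent.P240.R2.H195.Hei
import Vale.Agent.P240.R2.H487.CG.A9

/-!
`PSU_3(2)` is not simple.
-/

namespace Vale.Agent.P240.H195

open Subgroup Matrix Vale.Agent.P240.R2.H487.CG

section
variable {F : Type*} [Field F] [Finite F] {σ : F ≃+* F}

omit [Finite F] in
lemma norm_one_of (hs : ∀ x, σ (σ x) = x) (h4 : ∀ k, σ k = k → k = 0 ∨ k = 1) {y : F}
    (hy : y ≠ 0) : y * σ y = 1 := by
  refine (h4 _ (by rw [map_mul, hs, mul_comm])).resolve_left (mul_ne_zero hy ?_)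
  rwa [Ne, map_eq_zero_iff σ σ.injective]

omit [Finite F] in
lemma two_eq_zero_of (h4 : ∀ k, σ k = k → k = 0 ∨ k = 1) :
    (1 : F) + 1 = 0 := by
  rcases h4 (1 + 1) (by rw [map_add, map_one]) with h | h
  · exact h
  · exfalso
    exact one_ne_zero (by linear_combination h : (1 : F) = 0)

omit [Finite F] in
lemma cube_of (hs : ∀ x, σ (σ x) = x) (h4 : ∀ k, σ k = k → k = 0 ∨ k = 1) {y : F}
    (hy : y ≠ 0) : y * y * y = 1 := by
  have h2 := two_eq_zero_of h4
  have hn := norm_one_of hs h4 hy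
  rcases h4 (y + σ y) (by rw [map_add, hs, add_comm]) with h | h
  · have h5 : σ y = y := by linear_combination h - y * h2
    rcases h4 y h5 with h6 | h6
    · exact absurd h6 hy
    · rw [h6]; ring
  · linear_combination (y + 1) * (y * h - hn) - h2

lemma up_pos {x : ↥(GJ (2 + 1) σ)} (hx : IsUp x.1) (i : Fin (2 + 1)) :
    x.1.1 i i * σ (x.1.1 (Fin.rev i) (Fin.rev i)) = 1 := by
  have h1 := fixed x
  have hinv : IsUp (x.1)⁻¹ := (BU 2 F).inv_mem hx
  have h2 : ∀ j, x.1.1 j j * (x.1⁻¹).1 j j = 1 := by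
    intro j
    rw [← up_mul_diag hx hinv, mul_inv_cancel, sl_one, if_pos rfl]
  have h3 : x.1.1 i i = σ ((x.1⁻¹).1 (Fin.rev i) (Fin.rev i)) := by
    conv_lhs => rw [← h1]
    rw [th_apply, Even.neg_one_pow ⟨i.val, rfl⟩, one_mul]
  rw [h3, ← map_mul, mul_comm, h2, map_one]

lemma uu_entry {x : ↥(GJ (2 + 1) σ)} (hx : x ∈ UG σ) : x.1.1 1 2 = σ (x.1.1 0 1) := by
  have h1 := fixed x
  have hx' : IsUp x.1 := hx.1
  have hinv : IsUp (x.1)⁻¹ := (BU 2 F).inv_mem hx'
  have h2 : (x.1⁻¹).1 0 1 = -x.1.1 0 1 := by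
    have h3 : (x.1 * x.1⁻¹).1 0 1 = 0 := by
      rw [mul_inv_cancel, sl_one, if_neg (by decide)]
    have h0 : x.1.1 0 0 = 1 := hx.2 0
    rw [sl_mul, Fin.sum_univ_three, hinv 2 1 (by decide), mul_zero, add_zero, h0, one_mul] at h3
    have h4 : (x.1⁻¹).1 1 1 = 1 := ((UU 2 F).inv_mem hx).2 1
    rw [h4, mul_one] at h3
    linear_combination h3
  have h3 : x.1.1 1 2 = (-1) ^ ((1 : Fin (2 + 1)).val + (2 : Fin (2 + 1)).val) *
      σ ((x.1⁻¹).1 (Fin.rev 2) (Fin.rev 1)) := by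
    conv_lhs => rw [← h1]
    exact th_apply _ _ _ _
  have e1 : Fin.rev (2 : Fin (2 + 1)) = 0 := by decide
  have e2 : Fin.rev (1 : Fin (2 + 1)) = 1 := by decide
  have e3 : ((-1 : F)) ^ ((1 : Fin (2 + 1)).val + (2 : Fin (2 + 1)).val) = -1 :=
    Odd.neg_one_pow ⟨1, rfl⟩
  rw [h3, e1, e2, e3, h2, map_neg]
  ring

/-- `PSU_3(2)` is not simple -/
theorem not_simple_three (hs : ∀ x, σ (σ x) = x) (hne : ∃ x, σ x ≠ x)
    (h4 : ∀ k, σ k = k → k = 0 ∨ k = 1) : ¬ IsSimpleGroup (PGJ 3 σ) := by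
  classical
  have h2 := two_eq_zero_of h4
  have hcF : Nat.card F = 4 := by
    by_contra hcon
    obtain ⟨k, h5, h6, h7⟩ := exists_fixed_ne hs hne hcon
    rcases h4 k h5 with h8 | h8
    · exact h6 h8
    · exact h7 h8
  have hchar : CharP F 2 := by
    obtain ⟨p, hp⟩ := CharP.exists F
    have h5 : p ∣ 2 := (CharP.cast_eq_zero_iff F p 2).1 (by
      rw [← h2]; norm_num)
    have h6 : p ≠ 1 := CharP.char_ne_one F p
    have h7 := (Nat.dvd_prime Nat.prime_two).1 h5
    rcases h7 with h7 | h7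
    · exact absurd h7 h6
    · rwa [h7] at hp
  have : Fact (Nat.Prime 2) := ⟨Nat.prime_two⟩
  have hG := cg_SB (F := F) (σ := σ) (m := 2) (p := 2) two_pos hs (Or.inr (Or.inl hne))
  have h := pg_SB (F := F) (σ := σ) (m := 2) (p := 2) two_pos hs (Or.inr (Or.inl hne))
  have hker : ∀ k, pg 2 σ k = 1 → k ∈ BG σ ∧ k ∈ NG σ := by
    intro k hk
    have h1 : k ∈ center ↥(GJ (2 + 1) σ) := (QuotientGroup.eq_one_iff k).1 hk
    exact center_le_T hG Nat.prime_two fun g => (mem_center_iff.1 h1 g).symm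
  refine SB.not_simple_of_T h ?_ ?_ ?_
  · -- the torus is trivial
    intro t htB htN
    obtain ⟨x, rfl⟩ := QuotientGroup.mk'_surjective _ t
    have hxB : x ∈ BG σ := (map_mem_iff fun k hk => (hker k hk).1).1 htB
    have hxN : x ∈ NG σ := (map_mem_iff fun k hk => (hker k hk).2).1 htN
    have hup : IsUp x.1 := hxB
    obtain ⟨w, hw⟩ := mem_NG.1 hxN
    have hw1 := mon_up hw hup
    rw [hw1] at hw
    have hd := up_diag_ne hup
    have hd02 : x.1.1 2 2 = x.1.1 0 0 := by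
      have h5 := up_pos hup 0
      have h6 := norm_one_of hs h4 (hd 2)
      have e1 : Fin.rev (0 : Fin (2 + 1)) = 2 := by decide
      rw [e1] at h5
      have hσ : σ (x.1.1 2 2) ≠ 0 := by
        rw [Ne, map_eq_zero_iff σ σ.injective]; exact hd 2
      exact mul_right_cancel₀ hσ (h6.trans h5.symm)
    have hdet : x.1.1 0 0 * x.1.1 1 1 * x.1.1 2 2 = 1 := by
      have h5 := x.1.2
      rw [Matrix.det_fin_three, hup 1 0 (by decide), hup 2 0 (by decide), hup 2 1 (by decide)] at h5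
      linear_combination h5
    have hd1 : x.1.1 1 1 = x.1.1 0 0 := by
      have h5 := cube_of hs h4 (hd 0)
      rw [hd02] at hdet
      have h6 : x.1.1 0 0 * x.1.1 0 0 ≠ 0 := mul_ne_zero (hd 0) (hd 0)
      apply mul_left_cancel₀ h6
      linear_combination hdet - h5
    have hdall : ∀ i, x.1.1 i i = x.1.1 0 0 := by
      intro i
      fin_cases i
      · rfl
      · exact hd1
      · exact hd02
    have hcen : x ∈ center ↥(GJ (2 + 1) σ) := by
      rw [mem_center_iff]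
      intro g
      apply Subtype.ext
      refine sl_ext fun i j => ?_
      change (g.1 * x.1).1 i j = (x.1 * g.1).1 i j
      rw [sl_mul, sl_mul, Finset.sum_eq_single j, Finset.sum_eq_single i, hdall i, hdall j, mul_comm]
      · intro k _ hk
        rw [mon_eq hw (by rw [Equiv.Perm.one_apply]; exact hk.symm), zero_mul]
      · intro hk
        exact absurd (Finset.mem_univ _) hk
      · intro k _ hk
        rw [mon_eq hw (by rw [Equiv.Perm.one_apply]; exact hk), mul_zero]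
      · intro hk
        exact absurd (Finset.mem_univ _) hk
    exact (QuotientGroup.eq_one_iff x).2 hcen
  · -- one simple reflection
    rintro _ ⟨x, ⟨τ, hτ, hx⟩, rfl⟩ _ ⟨y, ⟨τ', hτ', hy⟩, rfl⟩
    have hττ : τ = τ' := by
      obtain ⟨i, hi, rfl⟩ := typ_iff.1 hτ
      obtain ⟨j, hj, rfl⟩ := typ_iff.1 hτ'
      have : i = j := by
        have := i.2
        have := j.2
        rw [Fin.ext_iff]
        omega
      rw [this]
    subst hττ
    rw [← map_inv, ← map_mul]
    refine ⟨x⁻¹ * y, ?_, rfl⟩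
    have h5 : Mon (x⁻¹ * y).1 (τ⁻¹ * τ) := mon_mul (mon_inv hx) hy
    rw [inv_mul_cancel] at h5
    exact mem_T' h5
  · -- the number of elements of `U`
    have h5 : Nat.card ((UG σ).map (pg 2 σ)) ≤ Nat.card (UG (F := F) (m := 2) σ) :=
      Nat.card_le_card_of_surjective (fun x : UG σ => (⟨pg 2 σ x.1, ⟨x.1, x.2, rfl⟩⟩ :
        ((UG σ).map (pg 2 σ)))) (by
          rintro ⟨_, ⟨x, hx, rfl⟩⟩
          exact ⟨⟨x, hx⟩, rfl⟩)
    have h6 : Nat.card (UG (F := F) (m := 2) σ) ≤ Nat.card (F × F) := by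
      refine Nat.card_le_card_of_injective (fun x : UG (F := F) (m := 2) σ =>
        (x.1.1.1 0 1, x.1.1.1 0 2)) fun x y hxy => ?_
      have e1 : x.1.1.1 0 1 = y.1.1.1 0 1 := congrArg Prod.fst hxy
      have e2 : x.1.1.1 0 2 = y.1.1.1 0 2 := congrArg Prod.snd hxy
      have e3 : x.1.1.1 1 2 = y.1.1.1 1 2 := by rw [uu_entry x.2, uu_entry y.2, e1]
      apply Subtype.ext
      apply Subtype.ext
      refine sl_ext fun i j => ?_
      have hx1 : IsUp x.1.1 := x.2.1
      have hy1 : IsUp y.1.1 := y.2.1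
      have hx2 : ∀ i, x.1.1.1 i i = 1 := x.2.2
      have hy2 : ∀ i, y.1.1.1 i i = 1 := y.2.2
      fin_cases i <;> fin_cases j
      · exact (hx2 0).trans (hy2 0).symm
      · exact e1
      · exact e2
      · exact (hx1 1 0 (by decide)).trans (hy1 1 0 (by decide)).symm
      · exact (hx2 1).trans (hy2 1).symm
      · exact e3
      · exact (hx1 2 0 (by decide)).trans (hy1 2 0 (by decide)).symm
      · exact (hx1 2 1 (by decide)).trans (hy1 2 1 (by decide)).symm
      · exact (hx2 2).trans (hy2 2).symm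
    rw [Nat.card_prod, hcF] at h6
    exact h5.trans h6

end

end Vale.Agent.P240.H195
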