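import Vale.Agent.P240.R2.H195.RigA

/-!
The field `rigid` of `RigidBN` from the action on the opposite root subgroups of the simple
reflections.
-/

namespace Vale.Agent.P240.H195

open Subgroup Vale.Agent.P240.K

universe u

section
variable {L : Type u} [Group L] {B N U : Subgroup L} {S : Set L} {p : ℕ}

/-- A split BN-pair of a simple group is rigid if `T` is abelian and automorphisms `f` with `f ^ p = 1`
that centralize `T` and stabilize `n U n⁻¹ ∩ (B ∪ B s B)` centralize this root subgroup. -/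
theorem SB.rigid_of_roots [Finite L] (h : SB p B N U S) (hsimple : IsSimpleGroup L) (hp : p.Prime)
    (hcomm : ∀ x ∈ B, x ∈ N → ∀ y ∈ B, y ∈ N → x * y = y * x)
    (hR : ∀ n ∈ N, (∀ x ∈ U, n * x * n⁻¹ ∈ U → x = 1) → ∀ f : MulAut L, f ^ p = 1 →
      (∀ t ∈ B, t ∈ N → f t = t) → ∀ s ∈ S,
      (∀ y ∈ Par B s, n⁻¹ * y * n ∈ U → f y ∈ Par B s ∧ n⁻¹ * f y * n ∈ U) →
      ∀ y ∈ Par B s, n⁻¹ * y * n ∈ U → f y = y) :
    RigidBN p B N U S where
  toSB := h
  comm := hcomm
  rigid := by
    intro n hn hopp f hfp hQ hC hT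
    have hB : am f B = B := hQ B le_rfl
    have hP : ∀ s ∈ S, am f (Par B s) = Par B s := fun s _ => hQ _ le_Par
    have hC' : am f (cj n B) = cj n B := hC
    refine h.eq_one_of_roots hsimple hp hB hP hn hopp hC' fun s hs => ?_
    refine hR n hn hopp f hfp hT s hs fun y hy hny => ⟨?_, ?_⟩
    · have := apply_mem_am (f := f) hy
      rwa [hP s hs] at this
    · have hfn : n⁻¹ * f n ∈ B := by
        rw [am_cj, hB, eq_comm, h.cj_B_eq_iff hp] at hC'
        exact hC'
      have e1 : n⁻¹ * f y * n = (n⁻¹ * f n) * f (n⁻¹ * y * n) * (n⁻¹ * f n)⁻¹ := by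
        simp only [map_mul, map_inv]
        group
      rw [e1]
      exact h.normal _ hfn _ (h.apply_U hp hB hny)

end

end Vale.Agent.P240.H195
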