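import Vale.Agent.P240.R2.H195.RelCyc
import Vale.Agent.P240.R2.AS.Stmts4

/-!
The elements `e W` lie in all groups `H` between `PSU` and `PGU`, up to the exceptional case.
-/

set_option autoImplicit false

namespace Vale.Agent.P240.R2.H195

open Matrix Vale.Agent.P240.R2.AS
open scoped Classical

universe u v

/-- in a finite cyclic group, a subgroup of order divisible by `p` contains all `x` with `x ^ p = 1` -/
lemma mem_of_pow {C : Type*} [Group C] [Finite C] [IsCyclic C] {p : ℕ} [hp : Fact p.Prime]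
    (S : Subgroup C) (h : p ∣ Nat.card S) {x : C} (hx : x ^ p = 1) : x ∈ S := by
  obtain ⟨y, hy⟩ := exists_prime_orderOf_dvd_card' p h
  have hy' : orderOf (y : C) = p := by rw [Subgroup.orderOf_coe, hy]
  have := Fintype.ofFinite C
  have h1 : (Finset.univ.filter fun z : C => z ∈ Subgroup.zpowers (y : C)) =
      Finset.univ.filter fun z : C => z ^ p = 1 := by
    apply Finset.eq_of_subset_of_card_le
    · intro z hz
      simp only [Finset.mem_filter, Finset.mem_univ, true_and] at hz ⊢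
      obtain ⟨k, rfl⟩ := hz
      show ((y : C) ^ k) ^ p = 1
      rw [← zpow_natCast, ← _root_.zpow_mul, mul_comm, _root_.zpow_mul, zpow_natCast, ← hy', pow_orderOf_eq_one,
        _root_.one_zpow]
    · refine (IsCyclic.card_pow_eq_one_le hp.out.pos).trans ?_
      rw [← Fintype.card_subtype, ← Nat.card_eq_fintype_card]
      have : Nat.card (Subgroup.zpowers (y : C)) = p := by rw [Nat.card_zpowers, hy']
      exact this.symm.le
  have h2 : x ∈ Finset.univ.filter fun z : C => z ^ p = 1 := by simp [hx]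
  rw [← h1] at h2
  simp only [Finset.mem_filter, Finset.mem_univ, true_and] at h2
  exact (Subgroup.zpowers_le.2 y.2) h2

lemma mem_of_relIndex {G : Type*} [Group G] {N : Subgroup G} [N.Normal] [Finite (G ⧸ N)]
    [IsCyclic (G ⧸ N)] {p : ℕ} [hp : Fact p.Prime] {H : Subgroup G} (hN : N ≤ H)
    (h : p ∣ N.relIndex H) {x : G} (hx : x ^ p = 1) : x ∈ H := by
  have h1 : N.subgroupOf H = ((QuotientGroup.mk' N).comp H.subtype).ker := by
    ext x
    simp [Subgroup.mem_subgroupOf, MonoidHom.mem_ker]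
  rw [Subgroup.relIndex, h1, Subgroup.index_ker] at h
  have h2 := mem_of_pow _ h (x := QuotientGroup.mk' N x) (by rw [← map_pow, hx, map_one])
  obtain ⟨y, hy⟩ := h2
  have h3 : (QuotientGroup.mk y.1 : G ⧸ N) = QuotientGroup.mk x := hy
  rw [QuotientGroup.eq] at h3
  have := H.mul_mem y.2 (hN h3)
  rwa [mul_inv_cancel_left] at this

section

variable {K : Type u} [Field K] [StarRing K] {n : ℕ}

omit [StarRing K] in
lemma one_add_pow {P : Matrix (Fin n) (Fin n) K} (hP : P * P = P) (ζ : K) (k : ℕ) :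
    (1 + (ζ - 1) • P) ^ k = 1 + (ζ ^ k - 1) • P := by
  induction k with
  | zero => simp
  | succ k ih =>
    rw [pow_succ, ih, add_mul, mul_add, mul_add, one_mul, mul_one, one_mul, smul_mul_smul_comm, hP,
      add_assoc, ← add_smul, ← add_smul]
    congr 2
    ring

lemma eU_pow {ζ : K} {p : ℕ} (hζ : ζ ^ p = 1) (P : Matrix (Fin n) (Fin n) K) :
    (eU ζ P) ^ p = 1 := by
  unfold eU
  split_ifs with h
  · apply Subtype.ext
    show (1 + (ζ - 1) • P) ^ p = 1
    rw [one_add_pow h.2.1, hζ, sub_self, zero_smul, add_zero]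
  · exact one_pow _

/-- scalar unitary matrices -/
noncomputable def sc (n : ℕ) (c : K) (hc : c * star c = 1) : GU K n :=
  ⟨c • 1, by
    rw [Matrix.mem_unitaryGroup_iff, star_smul, star_one, smul_mul_smul_comm, hc, one_mul, one_smul]⟩

lemma sc_center (c : K) (hc : c * star c = 1) : sc n c hc ∈ Subgroup.center (GU K n) := by
  rw [Subgroup.mem_center_iff]
  intro g
  apply Subtype.ext
  show g.1 * (c • 1) = (c • 1) * g.1
  rw [Matrix.mul_smul, Matrix.smul_mul, mul_one, one_mul]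

lemma mem_PSU_of_det {g : GU K n} {c : K} (hc : c * star c = 1) (h : (dt K n g : K) = c ^ n) :
    (QuotientGroup.mk g : PGU K n) ∈ PSU K n := by
  have hd : (dt K n (sc n c hc) : K) = c ^ n := by
    show Matrix.det (c • (1 : Matrix (Fin n) (Fin n) K)) = c ^ n
    rw [Matrix.det_smul, Matrix.det_one, mul_one, Fintype.card_fin]
  have hd' : dt K n g = dt K n (sc n c hc) := Units.ext (h.trans hd.symm)
  refine ⟨(sc n c hc)⁻¹ * g, ?_, ?_⟩
  · show _ ∈ SU K n
    rw [← dt_ker, MonoidHom.mem_ker, map_mul, map_inv, hd', inv_mul_cancel]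
  · rw [QuotientGroup.mk'_apply, QuotientGroup.eq, _root_.mul_inv_rev, inv_inv]
    have := sc_center (n := n) c hc
    rw [mul_assoc, ← (Subgroup.mem_center_iff.1 this g), inv_mul_cancel_left]
    exact this

end

lemma exists_c {K : Type u} [Field K] [Finite K] {q : ℕ} (hK : Nat.card K = q ^ 2)
    {p : ℕ} [hp : Fact p.Prime] {n : ℕ} (hn : 1 ≤ n) (h : ¬ p ^ (padicValNat p (q + 1)) ∣ n)
    {δ : K} (hδ : δ ^ p = 1) : ∃ c : K, c ^ (q + 1) = 1 ∧ δ = c ^ n := by
  have hb : padicValNat p n + 1 ≤ padicValNat p (q + 1) := by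
    by_contra hcon
    apply h
    refine (pow_dvd_pow p ?_).trans (pow_padicValNat_dvd (n := n))
    omega
  set b := padicValNat p n with hbdef
  have hd1 : p ^ (b + 1) ∣ q + 1 := (pow_dvd_pow p hb).trans pow_padicValNat_dvd
  have hd2 : ¬ p ^ (b + 1) ∣ n := pow_succ_padicValNat_not_dvd (by omega)
  have hd3 : p ^ (b + 1) ∣ n * p := by
    rw [pow_succ]
    exact Nat.mul_dvd_mul_right pow_padicValNat_dvd p
  obtain ⟨g, hg⟩ := IsCyclic.exists_ofOrder_eq_natCard (α := Kˣ)
  have hN : Nat.card Kˣ = (q + 1) * (q - 1) := by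
    rw [Nat.card_units, hK, ← Nat.sq_sub_sq, one_pow]
  have hdN : p ^ (b + 1) ∣ Nat.card Kˣ := by
    rw [hN]
    exact hd1.mul_right _
  obtain ⟨ξ, ho⟩ : ∃ ξ : Kˣ, orderOf ξ = p ^ (b + 1) := by
    refine ⟨g ^ (Nat.card Kˣ / p ^ (b + 1)), ?_⟩
    rw [← hg]
    rw [← hg] at hdN
    have hne : orderOf g ≠ 0 := by
      rw [hg]
      exact Nat.card_pos.ne'
    rw [orderOf_pow_of_dvd (Nat.div_pos (Nat.le_of_dvd (Nat.pos_of_ne_zero hne) hdN)
      (pow_pos hp.out.pos _)).ne' (Nat.div_dvd_of_dvd hdN), Nat.div_div_self hdN hne]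
  have h1 : orderOf (ξ ^ n) = p := by
    apply orderOf_eq_prime
    · rw [← pow_mul, ← orderOf_dvd_iff_pow_eq_one, ho]
      exact hd3
    · rw [Ne, ← orderOf_dvd_iff_pow_eq_one, ho]
      exact hd2
  have h2 : IsPrimitiveRoot (((ξ ^ n : Kˣ)) : K) p := by
    rw [IsPrimitiveRoot.coe_units_iff, ← h1]
    exact IsPrimitiveRoot.orderOf _
  have : NeZero p := ⟨hp.out.ne_zero⟩
  obtain ⟨i, _, hi⟩ := h2.eq_pow_of_pow_eq_one hδ
  refine ⟨((ξ ^ i : Kˣ) : K), ?_, ?_⟩
  · rw [← Units.val_pow_eq_pow_val, ← pow_mul, mul_comm, pow_mul]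
    have : ξ ^ (q + 1) = 1 := by
      rw [← orderOf_dvd_iff_pow_eq_one, ho]
      exact hd1
    rw [this, one_pow, Units.val_one]
  · have h3 : (ξ ^ n) ^ i = (ξ ^ i) ^ n := by rw [← pow_mul, ← pow_mul, mul_comm]
    rw [← hi, ← Units.val_pow_eq_pow_val, h3, Units.val_pow_eq_pow_val]

theorem stmtA1g : StmtA1g.{u} := by
  intro K _ _ _ q hq hK hs p hp hpq ζ hζ _ n hn H hH hcase w _
  have h1 : (eU ζ (sm w)) ^ p = 1 := eU_pow hζ _
  rcases hcase with h | h
  · apply hH
    have h2 : (dt K n (eU ζ (sm w)) : K) ^ p = 1 := by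
      rw [← Units.val_pow_eq_pow_val, ← map_pow, h1, map_one, Units.val_one]
    obtain ⟨c, hc, hc'⟩ := exists_c hK hn h h2
    refine mem_PSU_of_det (c := c) ?_ hc'
    rw [hs, ← pow_succ', hc]
  · have hx : (eW ζ w) ^ p = 1 := by
      unfold eW
      rw [← QuotientGroup.mk_pow, h1, QuotientGroup.mk_one]
    exact mem_of_relIndex hH h hx

theorem stmtA1 : StmtA1.{u} := by
  intro K _ _ _ q hq hK hs p hp hpq ζ hζ hζ' n hn H hH hr hcase w hw
  refine stmtA1g K q hq hK hs p hpq ζ hζ hζ' n hn H hH ?_ w hw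
  rcases hcase with h | h
  · exact Or.inl h
  · right
    rcases (Nat.dvd_prime hp.out).1 hr with h1 | h1
    · exact absurd (le_antisymm (Subgroup.relIndex_eq_one.1 h1) hH) h
    · rw [h1]

end Vale.Agent.P240.R2.H195
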