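import Mathlib.Algebra.CharP.Lemmas
import Mathlib.Algebra.CharP.Basic
import Mathlib.Algebra.Group.End
import Mathlib.Tactic

/-!
Automorphisms of order `p` of the Heisenberg type root subgroup of a unitary group in odd dimension
that commute with the action of the torus are trivial.
-/

namespace Vale.Agent.P240.H195

section
variable {F : Type*} [Field F]

lemma exists_tr_ne {σ : F ≃+* F} (hne : ∃ x, σ x ≠ x) : ∃ c : F, c + σ c ≠ 0 := by
  by_contra hcon
  push Not at hcon
  obtain ⟨x, hx⟩ := hne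
  have h1 := hcon 1
  rw [map_one] at h1
  have h2 := hcon x
  apply hx
  have h3 : x + x = 0 := by rw [← two_mul, ← one_add_one_eq_two, h1, zero_mul]
  rw [eq_neg_of_add_eq_zero_right h2]
  exact (eq_neg_of_add_eq_zero_right h3).symm

/-- not all cubes are fixed if the fixed field has more than two elements -/
lemma exists_cube_ne {σ : F ≃+* F} (hne : ∃ x, σ x ≠ x) (hq : ∃ k, σ k = k ∧ k ≠ 0 ∧ k ≠ 1)
    (h3 : (3 : F) ≠ 0 ∨ ∀ x : F, ∃ y, y ^ 3 = x) : ∃ t : F, t ≠ 0 ∧ (σ t) ^ 3 ≠ t ^ 3 := by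
  by_contra hcon
  push Not at hcon
  have hc : ∀ t : F, (σ t) ^ 3 = t ^ 3 := by
    intro t
    by_cases ht : t = 0
    · rw [ht, map_zero]
    · exact hcon t ht
  obtain ⟨x, hx⟩ := hne
  rcases h3 with h3 | h3
  · have key : ∀ y, σ y ≠ y → σ y = -y - 1 := by
      intro y hy
      have h1 := hc (y + 1)
      rw [map_add, map_one] at h1
      have h2 := hc y
      have h4 : 3 * ((σ y - y) * (σ y + y + 1)) = 0 := by linear_combination h1 - h2
      have h5 := (mul_eq_zero.1 ((mul_eq_zero.1 h4).resolve_left h3)).resolve_left (sub_ne_zero.2 hy)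
      linear_combination h5
    obtain ⟨k, hk, hk0, hk1⟩ := hq
    have h1 := key x hx
    have h2 := key (k * x) (by
      rw [map_mul, hk]
      exact fun h => hx (mul_left_cancel₀ hk0 h))
    rw [map_mul, hk, h1] at h2
    apply hk1
    linear_combination -h2
  · obtain ⟨y, hy⟩ := h3 x
    apply hx
    rw [← hy, map_pow, hc]

variable {p : ℕ} [hp : Fact p.Prime] [CharP F p]

/-- Heisenberg root subgroups are rigid. -/
theorem heis_core {σ : F ≃+* F} (hσ : ∀ x, σ (σ x) = x) (hne : ∃ x, σ x ≠ x)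
    {X : Type*} [Group X] {α β : X → F} {ε : F} (hε : ε ≠ 0) (hεσ : σ ε = ε)
    (hinj : ∀ x y, α x = α y → β x = β y → x = y)
    (hran : ∀ x, β x + σ (β x) = ε * (α x * σ (α x)))
    (hsurj : ∀ a b, b + σ b = ε * (a * σ a) → ∃ x, α x = a ∧ β x = b)
    (hα : ∀ x y, α (x * y) = α x + α y)
    (hβ : ∀ x y, β (x * y) = β x + β y + ε * (α x * σ (α y)))
    {W : Set F} (hW0 : ∀ k, σ k = k → k ≠ 0 → k ∈ W) (hW1 : ∃ w ∈ W, σ w ≠ w)
    (hW2 : ∃ w ∈ W, w ≠ 1 ∧ w * σ w = 1) {f : MulAut X}
    (hf : ∀ w ∈ W, ∀ x y, α y = w * α x → β y = w * σ w * β x →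
      α (f y) = w * α (f x) ∧ β (f y) = w * σ w * β (f x))
    (hfp : f ^ p = 1) : f = 1 := by
  obtain ⟨c, hc⟩ := exists_tr_ne hne
  obtain ⟨e, he⟩ := hne
  have hcσ : σ (c + σ c) = c + σ c := by rw [map_add, hσ, add_comm]
  have hα1 : α 1 = 0 := by
    have := hα 1 1
    rw [mul_one] at this
    linear_combination -this
  have hαinv : ∀ x, α x⁻¹ = -α x := by
    intro x
    have := hα x x⁻¹
    rw [mul_inv_cancel, hα1] at this
    linear_combination -this
  have hsurj' : ∀ a, ∃ x, α x = a := by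
    intro a
    obtain ⟨x, hx, -⟩ := hsurj a (ε * (a * σ a) * c / (c + σ c)) (by
      rw [map_div₀, map_mul, map_mul, map_mul, hσ, hεσ, hcσ]
      field_simp)
    exact ⟨x, hx⟩
  -- the centre
  have hcen : ∀ z, (∀ x, z * x = x * z) ↔ α z = 0 := by
    intro z
    constructor
    · intro hz
      by_contra hz0
      obtain ⟨x, hx⟩ := hsurj' (α z * e)
      have h1 := congrArg β (hz x)
      rw [hβ, hβ, hx, map_mul] at h1
      have hσz : σ (α z) ≠ 0 := by rwa [Ne, map_eq_zero_iff σ σ.injective]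
      have h2 : ε * (α z * σ (α z)) * (σ e - e) = 0 := by linear_combination h1
      rcases mul_eq_zero.1 h2 with h3 | h3
      · exact mul_ne_zero hε (mul_ne_zero hz0 hσz) h3
      · exact he (sub_eq_zero.1 h3)
    · intro hz x
      refine hinj _ _ ?_ ?_
      · rw [hα, hα, add_comm]
      · rw [hβ, hβ, hz, map_zero]
        ring
  have hfcen : ∀ z, α z = 0 → α (f z) = 0 := by
    intro z hz
    rw [← hcen] at hz ⊢
    intro x
    have h1 := hz (f⁻¹ x)
    have h2 := congrArg f h1
    rw [map_mul, map_mul, ← MulAut.mul_apply, mul_inv_cancel, MulAut.one_apply] at h2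
    exact h2
  have hwell : ∀ x y, α x = α y → α (f x) = α (f y) := by
    intro x y hxy
    have h1 : α (x * y⁻¹) = 0 := by rw [hα, hαinv, hxy, add_neg_cancel]
    have h2 := hfcen _ h1
    rw [map_mul, hα, map_inv, hαinv] at h2
    linear_combination h2
  choose s hs using hsurj'
  obtain ⟨φ, hφ⟩ : ∃ φ : F → F, φ = fun a => α (f (s a)) := ⟨_, rfl⟩
  have hφα : ∀ x, α (f x) = φ (α x) := by
    intro x
    rw [hφ]
    exact hwell _ _ (hs _).symm
  have hadd : ∀ a b, φ (a + b) = φ a + φ b := by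
    intro a b
    have h1 : φ (α (s a * s b)) = α (f (s a * s b)) := (hφα _).symm
    rw [hα, hs, hs, map_mul, hα, hφα, hφα, hs, hs] at h1
    exact h1
  have hmulW : ∀ w ∈ W, ∀ a, φ (w * a) = w * φ a := by
    intro w hw a
    obtain ⟨y, hy1, hy2⟩ := hsurj (w * a) (w * σ w * β (s a)) (by
      have := hran (s a)
      rw [hs] at this
      rw [map_mul, map_mul, hσ, map_mul]
      linear_combination (w * σ w) * this)
    have h1 := (hf w hw (s a) y (by rw [hs, hy1]) hy2).1
    rw [hφα, hφα, hy1, hs] at h1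
    exact h1
  have hzero : φ 0 = 0 := by
    have := hadd 0 0
    rw [add_zero] at this
    linear_combination -this
  have hlin : ∀ r a, φ (r * a) = r * φ a := by
    obtain ⟨w, hw, hwσ⟩ := hW1
    have hfix : ∀ k, σ k = k → ∀ a, φ (k * a) = k * φ a := by
      intro k hk a
      by_cases hk0 : k = 0
      · rw [hk0, zero_mul, zero_mul, hzero]
      · exact hmulW k (hW0 k hk hk0) a
    intro r a
    have hd : w - σ w ≠ 0 := sub_ne_zero.2 (Ne.symm hwσ)
    set k₂ := (r - σ r) / (w - σ w) with hk₂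
    set k₁ := r - k₂ * w with hk₁
    have h2 : σ k₂ = k₂ := by
      rw [hk₂, map_div₀, map_sub, map_sub, hσ, hσ, div_eq_div_iff (by
        rw [← neg_sub]; exact neg_ne_zero.2 hd) hd]
      ring
    have h3 : k₂ * (w - σ w) = r - σ r := by rw [hk₂, div_mul_cancel₀ _ hd]
    have h1 : σ k₁ = k₁ := by
      rw [hk₁, map_sub, map_mul, h2]
      linear_combination h3
    have e1 : r = k₁ + k₂ * w := by rw [hk₁]; ring
    have e2 : r * a = k₁ * a + k₂ * (w * a) := by rw [e1]; ring
    rw [e2, hadd, hfix _ h1, hfix _ h2, hmulW w hw]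
    conv_rhs => rw [e1]
    ring
  have hpow : ∀ k : ℕ, ∀ x, α ((f ^ k) x) = α x * φ 1 ^ k := by
    intro k
    induction k with
    | zero => intro x; simp
    | succ k ih =>
      intro x
      rw [pow_succ', MulAut.mul_apply, hφα, ih, ← mul_one (α x * φ 1 ^ k), hlin, pow_succ]
      ring
  have hφ1 : φ 1 = 1 := by
    have h2 := hpow p (s 1)
    rw [hfp, MulAut.one_apply, hs, one_mul] at h2
    have h3 : (φ 1 - 1) ^ p = 0 := by
      rw [sub_pow_char, one_pow, ← h2, sub_self]
    exact sub_eq_zero.1 (pow_eq_zero_iff hp.out.ne_zero |>.1 h3)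
  have hfα : ∀ x, α (f x) = α x := by
    intro x
    rw [hφα, ← mul_one (α x), hlin, hφ1]
  -- the centre is fixed
  have hfz : ∀ z, α z = 0 → β (f z) = β z := by
    intro z hz
    have hb := hran z
    rw [hz, map_zero, mul_zero, mul_zero] at hb
    set a' := -(β z / ε) * c / (c + σ c) with ha'
    have h1 : ε * (σ a' - a') = β z := by
      have hb' : σ (β z) = -β z := by linear_combination hb
      rw [ha', map_div₀, map_mul, map_neg, map_div₀, hcσ, hεσ, hb']
      field_simp
      ring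
    have h2 : s 1 * s a' = z * (s a' * s 1) := by
      refine hinj _ _ ?_ ?_
      · rw [hα, hα, hα, hz, hs, hs]; ring
      · rw [hβ, hβ, hβ, hα, hz, hs, hs, map_one]
        linear_combination h1
    have h3 := congrArg (fun x => β (f x)) h2
    simp only [map_mul] at h3
    rw [hβ, hβ, hβ, hα, hfα, hfα, hfα, hz, hs, hs, map_one] at h3
    linear_combination -h3 + h1
  obtain ⟨δ, hδ⟩ : ∃ δ : X → F, δ = fun x => β (f x) - β x := ⟨_, rfl⟩
  have hδ' : ∀ x, δ x = β (f x) - β x := fun x => by rw [hδ]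
  have hδmul : ∀ x y, δ (x * y) = δ x + δ y := by
    intro x y
    rw [hδ', hδ', hδ', map_mul, hβ, hβ, hfα, hfα]
    ring
  have hδz : ∀ z, α z = 0 → δ z = 0 := by
    intro z hz
    rw [hδ', hfz z hz, sub_self]
  have hδwell : ∀ x y, α x = α y → δ x = δ y := by
    intro x y hxy
    have h1 : δ (x * y⁻¹ * y) = δ (x * y⁻¹) + δ y := hδmul _ _
    rw [hδz (x * y⁻¹) (by rw [hα, hαinv, hxy, add_neg_cancel]), inv_mul_cancel_right, zero_add] at h1
    exact h1
  have hδ0 : ∀ x, δ x = 0 := by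
    obtain ⟨w, hw, hw1, hwn⟩ := hW2
    intro x
    have hw1' : w - 1 ≠ 0 := sub_ne_zero.2 hw1
    set v := s (α x / (w - 1)) with hv
    obtain ⟨y, hy1, hy2⟩ := hsurj (w * α v) (w * σ w * β v) (by
      have := hran v
      rw [map_mul, map_mul, hσ, map_mul]
      linear_combination (w * σ w) * this)
    have h1 := (hf w hw v y hy1 hy2).2
    have h2 : δ y = δ v := by
      rw [hδ', hδ', h1, hy2, hwn, one_mul, one_mul]
    have h3 : δ (x * v) = δ y := by
      refine hδwell _ _ ?_
      rw [hα, hy1, hv, hs]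
      field_simp
      ring
    rw [hδmul, h2] at h3
    linear_combination h3
  ext x
  rw [MulAut.one_apply]
  refine hinj _ _ (hfα x) ?_
  have := hδ0 x
  rw [hδ'] at this
  linear_combination this

/-- Heisenberg root subgroups are rigid, with the torus of a unitary group. -/
theorem heis_rigid [Finite F] {σ : F ≃+* F} (hσ : ∀ x, σ (σ x) = x) (hne : ∃ x, σ x ≠ x)
    {X : Type*} [Group X] {α β : X → F} {ε : F} (hε : ε ≠ 0) (hεσ : σ ε = ε)
    (hinj : ∀ x y, α x = α y → β x = β y → x = y)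
    (hran : ∀ x, β x + σ (β x) = ε * (α x * σ (α x)))
    (hsurj : ∀ a b, b + σ b = ε * (a * σ a) → ∃ x, α x = a ∧ β x = b)
    (hα : ∀ x y, α (x * y) = α x + α y)
    (hβ : (∀ x y, β (x * y) = β x + β y + ε * (α x * σ (α y))) ∨
      ∀ x y, β (x * y) = β x + β y + ε * (σ (α x) * α y))
    {W : Set F} (hW : ∀ t, t ≠ 0 → t ^ 2 / σ t ∈ W)
    (hW' : (∃ k, σ k = k ∧ k ≠ 0 ∧ k ≠ 1) ∨ ∀ t, t ≠ 0 → t / σ t ∈ W) {f : MulAut X}
    (hf : ∀ w ∈ W, ∀ x y, α y = w * α x → β y = w * σ w * β x →
      α (f y) = w * α (f x) ∧ β (f y) = w * σ w * β (f x))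
    (hfp : f ^ p = 1) : f = 1 := by
  have hσ0 : ∀ {x}, x ≠ 0 → σ x ≠ 0 := fun h => by rwa [Ne, map_eq_zero_iff σ σ.injective]
  have hW0 : ∀ k, σ k = k → k ≠ 0 → k ∈ W := by
    intro k hk hk0
    have := hW k hk0
    rwa [hk, sq, mul_div_assoc, div_self hk0, mul_one] at this
  have hW12 : (∃ w ∈ W, σ w ≠ w) ∧ ∃ w ∈ W, w ≠ 1 ∧ w * σ w = 1 := by
    by_cases hq : ∃ k, σ k = k ∧ k ≠ 0 ∧ k ≠ 1
    · have h3 : (3 : F) ≠ 0 ∨ ∀ x : F, ∃ y, y ^ 3 = x := by
        by_cases h3 : (3 : F) = 0
        · right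
          have hp3 : p = 3 := by
            have h4 : p ∣ 3 := (CharP.cast_eq_zero_iff F p 3).1 (by exact_mod_cast h3)
            exact (Nat.prime_dvd_prime_iff_eq hp.out Nat.prime_three).1 h4
          subst hp3
          intro x
          exact (Finite.surjective_of_injective (frobenius_inj F 3)) x
        · exact Or.inl h3
      obtain ⟨t, ht, htc⟩ := exists_cube_ne hne hq h3
      have hst := hσ0 ht
      refine ⟨⟨t ^ 2 / σ t, hW t ht, ?_⟩, ⟨(t / σ t) ^ 2 / σ (t / σ t), hW _ (div_ne_zero ht hst), ?_, ?_⟩⟩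
      · rw [map_div₀, map_pow, hσ]
        intro h4
        rw [div_eq_div_iff ht hst] at h4
        exact htc (by linear_combination h4)
      · rw [map_div₀, hσ]
        intro h4
        apply htc
        field_simp at h4
        exact h4.symm
      · simp only [map_div₀, map_pow, hσ]
        field_simp
    · have hW'' := hW'.resolve_left hq
      push Not at hq
      have h2 : (1 : F) + 1 = 0 := by
        by_contra h2
        have := hq (1 + 1) (by rw [map_add, map_one]) h2
        exact one_ne_zero (by linear_combination this : (1 : F) = 0)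
      obtain ⟨x, hx⟩ := hne
      have hx0 : x ≠ 0 := by
        rintro rfl
        exact hx (map_zero σ)
      have hsx := hσ0 hx0
      have hn : x / σ x * σ (x / σ x) = 1 := by
        rw [map_div₀, hσ]
        field_simp
      have hne1 : x / σ x ≠ 1 := by
        intro h4
        rw [div_eq_one_iff_eq hsx] at h4
        exact hx h4.symm
      refine ⟨⟨x / σ x, hW'' x hx0, ?_⟩, ⟨x / σ x, hW'' x hx0, hne1, hn⟩⟩
      intro h4
      rw [h4] at hn
      have h5 : (x / σ x - 1) * (x / σ x - 1) = 0 := by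
        linear_combination hn - (x / σ x - 1) * h2
      exact hne1 (sub_eq_zero.1 (mul_self_eq_zero.1 h5))
  rcases hβ with hβ | hβ
  · exact heis_core hσ hne hε hεσ hinj hran hsurj hα hβ hW0 hW12.1 hW12.2 hf hfp
  · refine heis_core (β := fun x => σ (β x)) hσ hne hε hεσ
      (fun x y h1 h2 => hinj x y h1 (σ.injective h2)) (fun x => ?_) (fun a b hab => ?_) hα
      (fun x y => ?_) hW0 hW12.1 hW12.2 (fun w hw x y h1 h2 => ?_) hfp
    · rw [hσ, add_comm]; exact hran x
    · obtain ⟨x, hx1, hx2⟩ := hsurj a (σ b) (by rw [hσ, add_comm]; exact hab)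
      exact ⟨x, hx1, by rw [hx2, hσ]⟩
    · change σ (β (x * y)) = _
      rw [hβ, map_add, map_add, map_mul, map_mul, hσ, hεσ]
    · have h3 : β y = w * σ w * β x := by
        apply σ.injective
        change σ (β y) = _
        rw [h2, map_mul, map_mul, hσ]
        ring
      obtain ⟨h4, h5⟩ := hf w hw x y h1 h3
      refine ⟨h4, ?_⟩
      change σ (β (f y)) = _
      rw [h5, map_mul, map_mul, hσ]
      ring

end

end Vale.Agent.P240.H195
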