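import Vale.Agent.P240.K.FamDefs

namespace Vale.Agent.P240.H195

/-- `L` has trivial centre and an element `s` of prime order such that no automorphism of order `p`
fixes `s`, and `|s|` does not divide `|E| - 1` for the elementary abelian `p`-subgroups `E`. -/
def IsoPrime (p : ℕ) (L : Type*) [Group L] : Prop :=
  (∀ z : L, (∀ y, z * y = y * z) → z = 1) ∧ ∃ s : L, (orderOf s).Prime ∧
    (∀ f : MulAut L, f ^ p = 1 → f s = s → f = 1) ∧
      ∀ E : Subgroup L, K.ElemAb p E → ¬ orderOf s ∣ Nat.card E - 1

end Vale.Agent.P240.H195
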