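import Vale.Agent.P240.H195.CF
import Vale.Agent.P240.R2.H195.IsoDef
import Vale.Agent.P240.H195.Eu3

/-!
Groups with an element of prime order fixed by no automorphism of order `p` (most sporadic groups for
`p = 2`).
-/

namespace Vale.Agent.P240.H195

open Subgroup Vale.Agent.P240.K

section
variable {L : Type*} [Group L] {p : ℕ}

/-- an elementary abelian `p`-subgroup normalized by `s` has order congruent to 1 -/
lemma iso_card [Finite L] {s : L} (hr : (orderOf s).Prime)
    (hc : ∀ x : L, x ^ p = 1 → x * s = s * x → x = 1) {E : Subgroup L} (hE : ElemAb p E)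
    (hsE : s ∈ normalizer (E : Set L)) : orderOf s ∣ Nat.card E - 1 := by
  have hle : zpowers s ≤ normalizer (E : Set L) := by rwa [zpowers_le]
  let act : MulAction (zpowers s) E :=
    { smul := fun g x => ⟨g * x * (g : L)⁻¹, (mem_normalizer_iff.1 (hle g.2) x).1 x.2⟩
      one_smul := fun x => Subtype.ext (by
        change ((1 : zpowers s) : L) * x * ((1 : zpowers s) : L)⁻¹ = x
        simp)
      mul_smul := fun g h x => Subtype.ext (by
        change ((g * h : zpowers s) : L) * x * ((g * h : zpowers s) : L)⁻¹ =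
          (g : L) * ((h : L) * x * (h : L)⁻¹) * (g : L)⁻¹
        rw [Subgroup.coe_mul]
        group) }
  have hfr : Fact (orderOf s).Prime := ⟨hr⟩
  have hP : IsPGroup (orderOf s) (zpowers s) := IsPGroup.of_card (n := 1) (by
    rw [Nat.card_zpowers, pow_one])
  have h1 := hP.card_modEq_card_fixedPoints E
  have h2 : MulAction.fixedPoints (zpowers s) E = {1} := by
    ext x
    rw [Set.mem_singleton_iff, MulAction.mem_fixedPoints]
    constructor
    · intro hx
      have h3 : s * x * s⁻¹ = x := congrArg Subtype.val (hx ⟨s, mem_zpowers s⟩)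
      exact Subtype.ext (hc x (hE.2.2 x x.2) (mul_inv_eq_iff_eq_mul.1 h3).symm)
    · rintro rfl g
      refine Subtype.ext ?_
      change (g : L) * ((1 : E) : L) * (g : L)⁻¹ = ((1 : E) : L)
      simp
  rw [h2, Nat.card_coe_set_eq, Set.ncard_singleton] at h1
  exact (Nat.modEq_iff_dvd' Nat.card_pos).1 h1.symm

/-- **the criterion** -/
theorem IsoPrime.cyc [Finite L] (h : IsoPrime p L) :
    ∃ s : L, (orderOf s).Prime ∧ ∀ E : Subgroup (MulAut L), ElemAb p E →
      MulAut.conj s ∈ normalizer (E : Set (MulAut L)) → False := by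
  obtain ⟨hZ, s, hr, hf, hd⟩ := h
  have hconj : ∀ x : L, MulAut.conj x = 1 → x = 1 := by
    intro x hx
    refine hZ x fun y => ?_
    have h3 := congrArg (fun f : MulAut L => f y) hx
    simp only [MulAut.conj_apply, MulAut.one_apply] at h3
    rwa [mul_inv_eq_iff_eq_mul] at h3
  have hc : ∀ x : L, x ^ p = 1 → x * s = s * x → x = 1 := by
    intro x hx hxs
    refine hconj x (hf _ (by rw [← map_pow, hx, map_one]) ?_)
    rw [MulAut.conj_apply, hxs, mul_inv_cancel_right]
  refine ⟨s, hr, fun E hE hsE => ?_⟩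
  have hin : ∀ x : L, MulAut.conj x ∈ E → x = 1 := by
    by_contra hcon
    push Not at hcon
    obtain ⟨x, hx, hx1⟩ := hcon
    have hE' : ElemAb p (E.comap (MulAut.conj (G := L))) := by
      refine ⟨?_, ?_, ?_⟩
      · intro hb
        have : x ∈ E.comap (MulAut.conj (G := L)) := hx
        rw [hb, mem_bot] at this
        exact hx1 this
      · intro a ha b hb
        have h1 := hE.2.1 _ ha _ hb
        rw [← map_mul, ← map_mul] at h1
        have h2 : MulAut.conj ((a * b) * (b * a)⁻¹) = 1 := by rw [map_mul, map_inv, h1, mul_inv_cancel]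
        exact mul_inv_eq_one.1 (hconj _ h2)
      · intro a ha
        refine hconj _ ?_
        rw [map_pow]
        exact hE.2.2 _ ha
    refine hd _ hE' (iso_card hr hc hE' ?_)
    rw [mem_normalizer_iff]
    intro y
    have h1 := mem_normalizer_iff.1 hsE (MulAut.conj y)
    rw [← map_inv, ← map_mul, ← map_mul] at h1
    exact h1
  apply hE.1
  rw [eq_bot_iff]
  intro f hfE
  rw [mem_bot]
  have hcomm : MulAut.conj (f s * s⁻¹) = f * (MulAut.conj s * f⁻¹ * (MulAut.conj s)⁻¹) := by
    have h3 : MulAut.conj (f s) = f * MulAut.conj s * f⁻¹ := by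
      ext y
      simp [MulAut.conj_apply]
    rw [map_mul, h3, map_inv]
    group
  have hmem : MulAut.conj (f s * s⁻¹) ∈ E := by
    rw [hcomm]
    exact mul_mem hfE ((mem_normalizer_iff.1 hsE _).1 (inv_mem hfE))
  have hfs : f s = s := by
    have := hin _ hmem
    rwa [mul_inv_eq_one] at this
  exact hf f (hE.2.2 f hfE) hfs

theorem IsoPrime.cycFree [Finite L] (h : IsoPrime p L) : CycFree p L := by
  obtain ⟨s, -, hs⟩ := h.cyc
  exact ⟨s, hs⟩

theorem IsoPrime.autFree [Finite L] (h : IsoPrime p L) : ∃ r : ℕ, r.Prime ∧ AutFree p r L := by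
  obtain ⟨s, hr, hE⟩ := h.cyc
  refine ⟨orderOf s, hr, zpowers s, ?_, fun E h1 h2 => hE E h1 (h2 ⟨s, mem_zpowers s, rfl⟩)⟩
  refine IsPGroup.of_card (n := 1) ?_
  rw [Nat.card_zpowers, pow_one]

theorem IsoPrime.euFree [Finite L] (h : IsoPrime p L) : EuFree p L := by
  obtain ⟨s, hr, hE⟩ := h.cyc
  obtain ⟨hZ, -⟩ := h
  refine ⟨s, ?_, fun f hf hfi hfs => ?_⟩
  · have h0 : {E | E ∈ Ain p (⊤ : Subgroup L) ∧ s ∈ normalizer (E : Set L)} = ∅ := by
      ext E
      simp only [Set.mem_ofPred_eq, Set.mem_empty_iff_false, iff_false]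
      rintro ⟨⟨h1, -⟩, h3⟩
      refine hE (E.map MulAut.conj) ⟨?_, ?_, ?_⟩ ?_
      · intro hb
        apply h1.1
        rw [eq_bot_iff]
        intro x hx
        have h4 : MulAut.conj x ∈ E.map MulAut.conj := ⟨x, hx, rfl⟩
        rw [hb, mem_bot] at h4
        refine hZ x fun y => ?_
        have h5 := congrArg (fun f : MulAut L => f y) h4
        simp only [MulAut.conj_apply, MulAut.one_apply] at h5
        rwa [mul_inv_eq_iff_eq_mul] at h5
      · rintro _ ⟨x, hx, rfl⟩ _ ⟨y, hy, rfl⟩
        rw [← map_mul, ← map_mul, h1.2.1 x hx y hy]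
      · rintro _ ⟨x, hx, rfl⟩
        rw [← map_pow, h1.2.2 x hx, map_one]
      · have h6 : (normalizer (E : Set L)).map MulAut.conj ≤
            normalizer ((E.map MulAut.conj : Subgroup (MulAut L)) : Set (MulAut L)) :=
          le_normalizer_map _
        exact h6 ⟨s, h3, rfl⟩
    rw [eulerFix_eq, lam, h0, eu_empty]
    exact one_ne_zero
  · refine hE (zpowers f) ⟨?_, ?_, ?_⟩ ?_
    · rw [Ne, zpowers_eq_bot]
      rintro rfl
      exact hfi (one_mem _)
    · rintro _ ⟨i, rfl⟩ _ ⟨j, rfl⟩
      exact (Commute.refl f).zpow_zpow i j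
    · rintro _ ⟨i, rfl⟩
      change (f ^ i) ^ p = 1
      rw [← zpow_natCast, zpow_comm, zpow_natCast, hf, one_zpow]
    · have h7 : Commute (MulAut.conj s) f := by
        have h8 : MulAut.conj (f s) = f * MulAut.conj s * f⁻¹ := by
          ext y
          simp [MulAut.conj_apply]
        rw [hfs] at h8
        exact eq_mul_inv_iff_mul_eq.1 h8
      refine mem_of_comm ?_
      rintro _ ⟨i, rfl⟩
      exact h7.zpow_right i

theorem IsoPrime.good {𝕜 : Type*} [Field 𝕜] {l : ℕ} [Finite L] (h : IsoPrime p L) :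
    GoodFactor 𝕜 p l L := by
  by_cases hd : p ∣ Nat.card L
  · exact Or.inr (Or.inr (Or.inl ⟨h.euFree, hd⟩))
  · obtain ⟨r, hr, hA⟩ := h.autFree
    exact Or.inr (Or.inr (Or.inr (Or.inl ⟨r, hr, hA, Or.inr (Or.inr (Or.inr hd))⟩)))

end

end Vale.Agent.P240.H195
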