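import Mathlib.GroupTheory.Sylow
import Mathlib.Tactic
import Vale.Agent.P240.H195.BNFix

/-!
Rank one groups with trivial torus in characteristic `2` and at most `16` elements in `U` are not
simple.
-/

namespace Vale.Agent.P240.H195

open Subgroup

universe u

section
variable {G : Type u} [Group G] [Finite G]

lemma sylow_step (hs : IsSimpleGroup G) {r u k : ℕ} [Fact r.Prime] (hcard : Nat.card G = r ^ k * u)
    (hk : k ≠ 0) (hu : 1 < u) (hco : Nat.Coprime r u) :
    Nat.card (Sylow r G) ∣ u ∧ Nat.card (Sylow r G) ≡ 1 [MOD r] ∧ Nat.card (Sylow r G) ≠ 1 := by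
  have hr := Fact.out (p := r.Prime)
  obtain ⟨P⟩ : Nonempty (Sylow r G) := inferInstance
  have hidx : P.index ∣ u := by
    have h1 : P.index ∣ r ^ k * u := by rw [← hcard]; exact Subgroup.index_dvd_card _
    have h2 : Nat.Coprime P.index (r ^ k) :=
      Nat.Coprime.pow_right k (((Nat.Prime.coprime_iff_not_dvd hr).2 P.not_dvd_index).symm)
    exact h2.dvd_of_dvd_mul_left h1
  refine ⟨(Sylow.card_dvd_index P).trans hidx, card_sylow_modEq_one r G, fun h1 => ?_⟩
  have hsub : Subsingleton (Sylow r G) := (Nat.card_eq_one_iff_unique.1 h1).1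
  have hn : (P : Subgroup G).Normal := P.normal_of_subsingleton
  rcases hs.eq_bot_or_eq_top_of_normal _ hn with h2 | h2
  · have h3 : P.index = Nat.card G := by
      change (P : Subgroup G).index = _
      rw [h2, Subgroup.index_bot]
    apply P.not_dvd_index (p := r)
    rw [h3, hcard]
    exact dvd_mul_of_dvd_left (dvd_pow_self r hk) _
  · obtain ⟨n, hn⟩ := IsPGroup.iff_card.1 P.2
    have h3 : Nat.card G = r ^ n := by
      rw [← hn]
      change _ = Nat.card (P : Subgroup G)
      rw [h2]
      exact Subgroup.card_top.symm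
    have h4 : u ∣ r ^ n := by
      rw [← h3, hcard]
      exact dvd_mul_left _ _
    have h5 : u ∣ 1 := (Nat.Coprime.pow_right n hco.symm).dvd_of_dvd_mul_left (by simpa using h4)
    have := Nat.dvd_one.1 h5
    omega

lemma not_simple_card (hs : IsSimpleGroup G) {u : ℕ} (hu : u = 2 ∨ u = 4 ∨ u = 8 ∨ u = 16)
    (hcard : Nat.card G = (u + 1) * u) : False := by
  have hprime : ∀ r : ℕ, r.Prime → 1 < u → r = u + 1 → False := by
    intro r hr hu1 hru
    have : Fact r.Prime := ⟨hr⟩
    obtain ⟨h1, h2, h3⟩ := sylow_step hs (r := r) (k := 1) (u := u) (by rw [hcard, pow_one, hru])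
      one_ne_zero hu1 (by rw [hru]; simp)
    have h4 := Nat.le_of_dvd (by omega) h1
    have h5 : Nat.card (Sylow r G) % r = 1 % r := h2
    rw [Nat.mod_eq_of_lt (by omega), Nat.mod_eq_of_lt hr.one_lt] at h5
    exact h3 h5
  rcases hu with rfl | rfl | rfl | rfl
  · exact hprime 3 (by norm_num) (by norm_num) rfl
  · exact hprime 5 (by norm_num) (by norm_num) rfl
  · have : Fact (Nat.Prime 3) := ⟨by norm_num⟩
    obtain ⟨h1, h2, h3⟩ := sylow_step hs (r := 3) (k := 2) (u := 8) (by rw [hcard]; norm_num)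
      two_ne_zero (by norm_num) (by norm_num)
    have h4 : Nat.card (Sylow 3 G) % 3 = 1 := h2
    have h5 : Nat.card (Sylow 3 G) = 4 := by
      have h6 := Nat.le_of_dvd (by norm_num) h1
      interval_cases Nat.card (Sylow 3 G) <;> omega
    let ρ := MulAction.toPermHom G (Sylow 3 G)
    rcases hs.eq_bot_or_eq_top_of_normal _ (MonoidHom.normal_ker ρ) with h6 | h6
    · have h7 : Function.Injective ρ := (MonoidHom.ker_eq_bot_iff ρ).1 h6
      have h8 := Nat.card_le_card_of_injective ρ h7
      rw [Nat.card_perm, h5, hcard] at h8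
      norm_num [Nat.factorial] at h8
    · have hsub : Subsingleton (Sylow 3 G) := ⟨fun P Q => by
        obtain ⟨g, hg⟩ := MulAction.exists_smul_eq G P Q
        have h7 : g ∈ ρ.ker := by rw [h6]; exact mem_top g
        have h8 := congrArg (fun v : Equiv.Perm (Sylow 3 G) => v P) (MonoidHom.mem_ker.1 h7)
        have h9 : g • P = P := h8
        rw [← hg, h9]⟩
      have := Nat.card_of_subsingleton (Classical.arbitrary (Sylow 3 G))
      omega
  · exact hprime 17 (by norm_num) (by norm_num) rfl

end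

section
variable {L : Type u} [Group L] [Finite L] {B N U : Subgroup L} {S : Set L}

/-- A split BN-pair of characteristic `2` and rank one with trivial `T` and `|U| ≤ 16`. -/
theorem SB.not_simple_of_T (h : SB 2 B N U S) (hT : ∀ t ∈ B, t ∈ N → t = 1)
    (hS : ∀ s ∈ S, ∀ s' ∈ S, s⁻¹ * s' ∈ B) (hU : Nat.card U ≤ 16) : ¬ IsSimpleGroup L := by
  intro hs
  have hBU : ∀ b ∈ B, b ∈ U := by
    intro b hb
    obtain ⟨u, hu, t, htB, htN, rfl⟩ := h.split b hb
    rw [hT t htB htN, mul_one]
    exact hu
  obtain ⟨s, hsS⟩ := h.nonempty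
  have hsN := h.sub s hsS
  have htop : ∀ x, x ∈ B ∨ DC B s x := by
    intro x
    rw [← h.mem_Par hsS]
    have h1 : x ∈ closure ((B : Set L) ∪ S) := by rw [h.closure_top]; exact mem_top x
    refine (closure_le _).2 ?_ h1
    rintro y (hy | hy)
    · exact le_Par hy
    · have h2 : s * (s⁻¹ * y) ∈ Par B s := mul_mem self_mem_Par (le_Par (hS s hsS y hy))
      rwa [mul_inv_cancel_left] at h2
  have hss : s * s = 1 := hT _ (h.sq s hsS) (mul_mem hsN hsN)
  have hsinv : s⁻¹ = s := inv_eq_of_mul_eq_one_left hss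
  obtain ⟨n, hn, hx⟩ := h.opp
  have hns : n = s := by
    rcases htop n with h1 | h1
    · exfalso
      have h2 := hT n h1 hn
      obtain ⟨b, hb, hbs⟩ := h.thick s hsS
      apply hbs
      have h3 : b = 1 := hx b (hBU b hb) (by rw [h2]; simpa using hBU b hb)
      rw [h3]
      simp
    · have h2 := hT _ (h.inj hsN hn h1) (mul_mem (inv_mem hsN) hn)
      exact (inv_mul_eq_one.1 h2).symm
  rw [hns] at hx
  -- the number of elements
  let φ : U ⊕ (U × U) → L := Sum.elim (fun u => u.1) (fun q => q.1.1 * s * q.2.1)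
  have hφ : Function.Bijective φ := by
    constructor
    · have key : ∀ u v w : U, u.1 ≠ v.1 * s * w.1 := by
        intro u v w he
        apply h.not_mem hsS
        have : s = v.1⁻¹ * u.1 * w.1⁻¹ := by rw [he]; group
        rw [this]
        exact mul_mem (mul_mem (inv_mem (h.le v.2)) (h.le u.2)) (inv_mem (h.le w.2))
      rintro (u | ⟨v, w⟩) (u' | ⟨v', w'⟩) he
      · exact congrArg Sum.inl (Subtype.ext he)
      · exact absurd he (key _ _ _)
      · exact absurd he.symm (key _ _ _)
      · have he' : v.1 * s * w.1 = v'.1 * s * w'.1 := he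
        have h1 : v'.1⁻¹ * v.1 = 1 := by
          refine hx _ (mul_mem (inv_mem v'.2) v.2) ?_
          have : s * (v'.1⁻¹ * v.1) * s⁻¹ = w'.1 * w.1⁻¹ := by
            have h2 : v.1 = v'.1 * s * w'.1 * w.1⁻¹ * s⁻¹ := by rw [← he']; group
            rw [h2]
            have : s * (v'.1⁻¹ * (v'.1 * s * w'.1 * w.1⁻¹ * s⁻¹)) * s⁻¹ =
              (s * s) * (w'.1 * w.1⁻¹) * (s * s)⁻¹ := by group
            rw [this, hss]
            simp
          rw [this]
          exact mul_mem w'.2 (inv_mem w.2)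
        have h2 : v = v' := Subtype.ext (inv_mul_eq_one.1 h1).symm
        subst h2
        have h3 : w.1 = w'.1 := mul_left_cancel he'
        have h4 : w = w' := Subtype.ext h3
        rw [h4]
    · intro x
      rcases htop x with h1 | ⟨a, ha, b, hb, rfl⟩
      · exact ⟨Sum.inl ⟨x, hBU x h1⟩, rfl⟩
      · exact ⟨Sum.inr (⟨a, hBU a ha⟩, ⟨b, hBU b hb⟩), rfl⟩
  have hcard : Nat.card L = (Nat.card U + 1) * Nat.card U := by
    rw [← Nat.card_congr (Equiv.ofBijective φ hφ), Nat.card_sum, Nat.card_prod]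
    ring
  obtain ⟨k, hk⟩ := IsPGroup.iff_card.1 h.pgroup
  have hk4 : k ≤ 4 := by
    by_contra hcon
    have : 2 ^ 5 ≤ 2 ^ k := Nat.pow_le_pow_right (by norm_num) (by omega)
    omega
  have hk0 : k ≠ 0 := by
    rintro rfl
    rw [pow_zero] at hk
    have hbot : U = ⊥ := Subgroup.card_eq_one.1 hk
    obtain ⟨b, hb, hbs⟩ := h.thick s hsS
    apply hbs
    have h3 : b = 1 := by
      have := hBU b hb
      rwa [hbot, mem_bot] at this
    rw [h3]
    simp
  refine not_simple_card hs (u := Nat.card U) ?_ hcard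
  rw [hk]
  interval_cases k
  · exact absurd rfl hk0
  all_goals norm_num

end

end Vale.Agent.P240.H195
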