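import Vale.Agent.P240.R2.H195.OmRig
import Vale.Agent.P240.R2.H613.I5
import Vale.Agent.P240.R2.H296.OSq

/-!
The groups `Ω_n(F)`, `n` odd, satisfy `RigidLie p` in the characteristic `p` of `F`.
-/

set_option autoImplicit false
set_option linter.all false

namespace Vale.Agent.P240.R2.H195.Om

open Subgroup Matrix Vale.Agent.P240.H195 Vale.Agent.P240.R2.H487.CG Vale.Agent.P240.K

universe u

section
variable {L : Type*} [Group L] {B N U : Subgroup L} {S : Set L} {r : ℕ}

/-- a simple group with a split BN-pair has trivial centre -/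
lemma centre_of_simple (h : SB r B N U S) (hs : IsSimpleGroup L) :
    ∀ x : L, (∀ y, x * y = y * x) → x = 1 := by
  intro x hx
  have hxZ : x ∈ center L := mem_center_iff.2 fun g => (hx g).symm
  rcases hs.eq_bot_or_eq_top_of_normal (center L) inferInstance with h1 | h1
  · rwa [h1, mem_bot] at hxZ
  · exfalso
    obtain ⟨s, hsS⟩ := h.nonempty
    obtain ⟨b, hb, hbs⟩ := h.thick s hsS
    apply hbs
    have h2 : b ∈ center L := by rw [h1]; exact mem_top b
    have h3 := mem_center_iff.1 h2 s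
    have : s⁻¹ * b * s = b := by rw [mul_assoc, ← h3]; group
    rwa [this]

end

section
variable {F : Type u} [Field F] [Finite F] {m : ℕ}

/-- squares lie in the commutator subgroup -/
lemma sq_mem_comm (hev : m % 2 = 0) (h2 : (2 : F) ≠ 0) (x : ↥(GJ (m + 1) (rf F))) :
    x * x ∈ commutator ↥(GJ (m + 1) (rf F)) := by
  letI : Fintype F := Fintype.ofFinite F
  letI : StarRing F := starRingOfComm
  obtain ⟨e⟩ := Vale.Agent.P240.R2.H613.I5.pgu_equiv (K := F) (n := m + 1) (fun x => rfl) h2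
    (Nat.odd_iff.2 (by omega))
  have h1 := Vale.Agent.P240.R2.H296.O.sq_mem (K := F) (n := m + 1) (fun x => rfl) h2 (e.symm x)
  have h3 : e (e.symm x ^ 2) ∈ (commutator (Vale.Agent.P240.R2.AS.PGU F (m + 1))).map
      e.toMonoidHom := ⟨_, h1, rfl⟩
  have h4 : (commutator (Vale.Agent.P240.R2.AS.PGU F (m + 1))).map e.toMonoidHom ≤
      commutator ↥(GJ (m + 1) (rf F)) := by
    rw [commutator_def, commutator_def, Subgroup.map_commutator]
    exact Subgroup.commutator_mono le_top le_top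
  have h5 := h4 h3
  rwa [map_pow, MulEquiv.apply_symm_apply, sq] at h5

lemma UG_le_comm {p : ℕ} [hp : Fact p.Prime] [CharP F p] (hm : 0 < m) (hev : m % 2 = 0)
    (h2 : (2 : F) ≠ 0) : UG (rf F) ≤ commutator ↥(GJ (m + 1) (rf F)) := by
  intro x hx
  have hG := cg_SB (F := F) (σ := rf F) (p := p) hm hrf (Or.inr (Or.inr h2))
  obtain ⟨k, hk⟩ := hG.exists_pow hx
  have hp2 : (2 : ℕ) ≠ p := by
    rintro rfl
    apply h2
    exact_mod_cast CharP.cast_eq_zero F 2
  refine mem_of_pow hp.out Nat.prime_two hp2 hk ?_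
  rw [sq]
  exact sq_mem_comm hev h2 x

/-- **rigidity** of `Ω_n(F)`, `n` odd, in the characteristic of `F` -/
theorem omega_rigid {p : ℕ} [hp : Fact p.Prime] [CharP F p] (hm : 0 < m) (hev : m % 2 = 0)
    (h2 : (2 : F) ≠ 0) (hs : IsSimpleGroup ↥(commutator ↥(GJ (m + 1) (rf F)))) :
    RigidBN p ((BG (rf F)).subgroupOf (commutator ↥(GJ (m + 1) (rf F))))
      ((NG (rf F)).subgroupOf (commutator ↥(GJ (m + 1) (rf F))))
      ((UG (rf F)).subgroupOf (commutator ↥(GJ (m + 1) (rf F))))
      (subS (BG (rf F)) (NG (rf F)) (SG (rf F)) (commutator ↥(GJ (m + 1) (rf F)))) :=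
  om_rigid (p := p) hm hev h2 inferInstance (UG_le_comm (p := p) hm hev h2)
    (fun t _ => sq_mem_comm hev h2 t) hs

/-- simple groups `Ω_n(F)`, `n` odd, satisfy `RigidLie p` in the characteristic `p` of `F` -/
theorem omega_rigidLie {p : ℕ} [hp : Fact p.Prime] [CharP F p] (hm : 0 < m) (hev : m % 2 = 0)
    (h2 : (2 : F) ≠ 0) (hs : IsSimpleGroup ↥(commutator ↥(GJ (m + 1) (rf F)))) :
    RigidLie p ↥(commutator ↥(GJ (m + 1) (rf F))) :=
  ⟨hs, centre_of_simple (omega_rigid (p := p) hm hev h2 hs).toSB hs, _, _, _, _,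
    omega_rigid (p := p) hm hev h2 hs⟩

end

end Vale.Agent.P240.R2.H195.Om
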