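import Vale.Agent.P240.R2.H195.RigB
import Vale.Agent.P240.R2.H775.RG8
import Vale.Agent.P240.R2.H487.SubBN

/-!
Rigidity of the split BN-pairs of the groups `Ω_n(F)`, `n` odd, in the characteristic of `F`.
-/

set_option autoImplicit false
set_option linter.all false

namespace Vale.Agent.P240.R2.H195.Om

open Subgroup Matrix Vale.Agent.P240.H195 Vale.Agent.P240.R2.H487.CG Vale.Agent.P240.K
  Vale.Agent.P240.R2.H775.RG

section
variable {F : Type*} [Field F] [Finite F] {m : ℕ} {σ : F ≃+* F}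
  {H : Subgroup ↥(GJ (m + 1) σ)}

/-- lower unitriangular elements lie in normal subgroups containing `U` -/
lemma lou_mem (hH : H.Normal) (hU : UG σ ≤ H) {A : ↥(GJ (m + 1) σ)} (hA : LoU A.1) : A ∈ H := by
  obtain ⟨n, hn⟩ := exists_NG (F := F) (σ := σ) (w := Fin.revPerm) (cr_of fun x => by
    rw [Fin.revPerm_apply, Fin.revPerm_apply])
  have h1 : n⁻¹ * A * n ∈ UG σ := (lou_iff hn).1 hA
  have h2 := hH.conj_mem _ (hU h1) n
  have : n * (n⁻¹ * A * n) * n⁻¹ = A := by group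
  rwa [this] at h2

/-- the group `n U n⁻¹ ∩ P_s` in a normal subgroup containing `U` -/
lemma mem_Y_iff {p : ℕ}
    (h : SB p ((BG σ).subgroupOf H) ((NG σ).subgroupOf H) ((UG σ).subgroupOf H)
      (subS (BG σ) (NG σ) (SG σ) H)) {n s : ↥H} (hn : Mon n.1.1 Fin.revPerm)
    {τ : Equiv.Perm (Fin (m + 1))} (hτ : Typ τ) (hs : Mon s.1.1 τ)
    (hsS : s ∈ subS (BG σ) (NG σ) (SG σ) H) {y : ↥H} :
    (y ∈ Par ((BG σ).subgroupOf H) s ∧ n⁻¹ * y * n ∈ (UG σ).subgroupOf H) ↔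
      LoU y.1.1 ∧ Pt τ y.1.1 := by
  constructor
  · rintro ⟨hy, hny⟩
    refine ⟨(lou_iff hn).2 hny, ?_⟩
    rcases (h.mem_Par hsS).1 hy with h1 | ⟨a, ha, b, hb, hab⟩
    · exact pt_of_up h1
    · have h2 := pt_of_dc hs (a := a.1.1) (b := b.1.1) ha hb
      have h3 : y.1.1 = a.1.1 * s.1.1 * b.1.1 := by rw [hab]; rfl
      rwa [← h3] at h2
  · rintro ⟨hlo, hpt⟩
    refine ⟨?_, (lou_iff hn).1 hlo⟩
    have h1 : s⁻¹ * y * s ∈ (BG σ).subgroupOf H := (up_of_pt hτ hs hlo hpt).1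
    have e : y = s * (s⁻¹ * y * s) * s⁻¹ := by group
    rw [e]
    exact mul_mem (mul_mem self_mem_Par (le_Par h1)) (inv_mem self_mem_Par)

/-- automorphisms of order `p` on one-parameter root groups -/
lemma fix_gen {p : ℕ} [hp : Fact p.Prime] [CharP F p] (hH : H.Normal) (hU : UG σ ≤ H)
    (hsq : ∀ t : ↥(GJ (m + 1) σ), Mon t.1 1 → t * t ∈ H) {τ : Equiv.Perm (Fin (m + 1))}
    {u v : Fin (m + 1)}
    (hex : ∀ c : F, ∃ A : ↥(GJ (m + 1) σ), LoU A.1 ∧ Pt τ A.1 ∧ A.1.1 u v = c)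
    (hinj : ∀ A A' : ↥(GJ (m + 1) σ), LoU A.1 → Pt τ A.1 → LoU A'.1 → Pt τ A'.1 →
      A.1.1 u v = A'.1.1 u v → A = A')
    (hmul : ∀ A A' : ↥H, LoU A.1.1 → Pt τ A.1.1 → LoU A'.1.1 → Pt τ A'.1.1 →
      Pt τ (A * A').1.1)
    (hadd : ∀ A A' : ↥(GJ (m + 1) σ), LoU A.1 → Pt τ A.1 → LoU A'.1 → Pt τ A'.1 →
      (A * A').1.1 u v = A.1.1 u v + A'.1.1 u v)
    (hT : ∀ a : F, a ≠ 0 → ∃ t : ↥(GJ (m + 1) σ), Mon t.1 1 ∧
      t.1.1 u u * (t.1.1 v v)⁻¹ = a)
    {f : MulAut ↥H} (hfp : f ^ p = 1) (hfT : ∀ t : ↥H, Mon t.1.1 1 → f t = t)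
    (hfX : ∀ y : ↥H, LoU y.1.1 → Pt τ y.1.1 → LoU (f y).1.1 ∧ Pt τ (f y).1.1) (y : ↥H)
    (hlo : LoU y.1.1) (hpt : Pt τ y.1.1) : f y = y := by
  choose X hX1 hX2 hX3 using hex
  have huniq : ∀ z : ↥H, LoU z.1.1 → Pt τ z.1.1 →
      z = ⟨X (z.1.1.1 u v), lou_mem hH hU (hX1 _)⟩ := by
    intro z h1 h2
    exact Subtype.ext (hinj _ _ h1 h2 (hX1 _) (hX2 _) (hX3 _).symm)
  have key := lin_fix (K := F) (p := p) (M := ↥H)
    (fun c => (⟨X c, lou_mem hH hU (hX1 c)⟩ : ↥H)) ?_ ?_ hfp ?_ ?_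
  · rw [huniq y hlo hpt]
    exact key _
  · intro a b hab
    have h1 := congrArg (fun z : ↥H => z.1.1.1 u v) hab
    have h2 : (X a).1.1 u v = (X b).1.1 u v := h1
    rwa [hX3, hX3] at h2
  · intro a b
    have h1 := hmul ⟨X a, lou_mem hH hU (hX1 a)⟩ ⟨X b, lou_mem hH hU (hX1 b)⟩ (hX1 a) (hX2 a)
      (hX1 b) (hX2 b)
    refine Subtype.ext (hinj _ _ (hX1 _) (hX2 _) (lou_mul (hX1 a) (hX1 b)) h1 ?_)
    change _ = (X a * X b).1.1 u v
    rw [hadd _ _ (hX1 a) (hX2 a) (hX1 b) (hX2 b), hX3, hX3, hX3]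
  · intro c
    obtain ⟨h1, h2⟩ := hfX ⟨X c, lou_mem hH hU (hX1 c)⟩ (hX1 c) (hX2 c)
    exact ⟨_, huniq _ h1 h2⟩
  · intro a ha
    obtain ⟨t, ht, hta⟩ := hT a ha
    have htt : Mon (t * t).1 1 := by
      have := mon_mul ht ht
      rwa [one_mul] at this
    refine ⟨⟨t * t, hsq t ht⟩, hfT _ htt, fun c => ?_⟩
    have hentry : ∀ i j, ((t * t) * X c * (t * t)⁻¹).1.1 i j =
        (t * t).1.1 i i * (X c).1.1 i j * ((t * t).1.1 j j)⁻¹ :=
      fun i j => diag_conj_apply htt (X c).1 i j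
    have hlo' : LoU ((t * t) * X c * (t * t)⁻¹).1 := by
      refine ⟨fun i j hij => ?_, fun i => ?_⟩
      · rw [hentry, (hX1 c).1 i j hij]
        ring
      · rw [hentry, (hX1 c).2 i, mul_one]
        exact mul_inv_cancel₀ (mon_ne htt i)
    have hpt' : Pt τ ((t * t) * X c * (t * t)⁻¹).1 := by
      intro i j hij hne
      refine hX2 c i j hij fun h0 => hne ?_
      rw [hentry, h0]
      ring
    refine Subtype.ext (hinj _ _ hlo' hpt' (hX1 _) (hX2 _) ?_)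
    have hdd : ∀ i, (t * t).1.1 i i = t.1.1 i i * t.1.1 i i := fun i =>
      up_mul_diag (mem_T' ht) (mem_T' ht) i
    rw [hX3]
    refine (hentry u v).trans ?_
    rw [hX3, hdd, hdd, ← hta, mul_inv]
    ring

end

section
variable {F : Type*} [Field F] [Finite F] {m : ℕ}

/-- the identity -/
abbrev rf (F : Type*) [Field F] : F ≃+* F := RingEquiv.refl F

lemma hrf (x : F) : rf F (rf F x) = x := rfl

/-- elements of the middle root group for the identity -/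
lemma B_uniq {i : Fin m} (hi : 2 * i.val + 2 = m) (h2 : (2 : F) ≠ 0) {A A' : ↥(GJ (m + 1) (rf F))}
    (h3 : LoU A.1) (h4 : Pt (Equiv.swap i.castSucc (Fin.rev i.castSucc)) A.1) (h5 : LoU A'.1)
    (h6 : Pt (Equiv.swap i.castSucc (Fin.rev i.castSucc)) A'.1)
    (h7 : A.1.1 i.succ i.castSucc = A'.1.1 i.succ i.castSucc) : A = A' := by
  have h8 := B_sym hrf hi (fixed A) h3 h4
  have h9 := B_sym hrf hi (fixed A') h5 h6
  have e1 := B_form hi h3 h4
  have e2 := B_form hi h5 h6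
  have h10 : A.1.1 (Fin.rev i.castSucc) i.succ = A.1.1 i.succ i.castSucc := h8.1
  have h11 : A'.1.1 (Fin.rev i.castSucc) i.succ = A'.1.1 i.succ i.castSucc := h9.1
  have h12 : A.1.1 (Fin.rev i.castSucc) i.castSucc + A.1.1 (Fin.rev i.castSucc) i.castSucc =
    A.1.1 i.succ i.castSucc * A.1.1 i.succ i.castSucc := h8.2
  have h13 : A'.1.1 (Fin.rev i.castSucc) i.castSucc + A'.1.1 (Fin.rev i.castSucc) i.castSucc =
    A'.1.1 i.succ i.castSucc * A'.1.1 i.succ i.castSucc := h9.2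
  have h14 : A.1.1 (Fin.rev i.castSucc) i.castSucc = A'.1.1 (Fin.rev i.castSucc) i.castSucc := by
    apply mul_left_cancel₀ h2
    rw [h7] at h12
    linear_combination h12 - h13
  apply Subtype.ext
  rw [e1, e2, h10, h11, h7, h14]

/-- **rigidity** in normal subgroups of `SO_n(F)`, `n` odd, containing `U` and all squares of
diagonal elements -/
theorem om_rigid {p : ℕ} [hp : Fact p.Prime] [CharP F p] (hm : 0 < m) (hev : m % 2 = 0)
    (h2 : (2 : F) ≠ 0) {H : Subgroup ↥(GJ (m + 1) (rf F))} (hH : H.Normal) (hU : UG (rf F) ≤ H)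
    (hsq : ∀ t : ↥(GJ (m + 1) (rf F)), Mon t.1 1 → t * t ∈ H) (hsimple : IsSimpleGroup ↥H) :
    RigidBN p ((BG (rf F)).subgroupOf H) ((NG (rf F)).subgroupOf H) ((UG (rf F)).subgroupOf H)
      (subS (BG (rf F)) (NG (rf F)) (SG (rf F)) H) := by
  have hr := hp.out
  have hG := cg_SB (F := F) (σ := rf F) (p := p) hm hrf (Or.inr (Or.inr h2))
  have h := SB.subgroup hG hU
  refine SB.rigid_of_roots h hsimple hr ?_ ?_
  · intro x hxB hxN y hyB hyN
    have hx : Mon x.1.1 1 := mem_T.1 (mem_inf.2 ⟨hxB, hxN⟩)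
    have hy : Mon y.1.1 1 := mem_T.1 (mem_inf.2 ⟨hyB, hyN⟩)
    exact Subtype.ext (Subtype.ext (diag_comm hx hy))
  · intro n hnN hopp f hfp hfT s hsS hstab
    -- `n` is a longest element
    obtain ⟨n₀, hn₀⟩ := exists_NG (F := F) (m := m) (σ := rf F) (w := Fin.revPerm) (cr_of fun x => by
      rw [Fin.revPerm_apply, Fin.revPerm_apply])
    have hn₀N : n₀ ∈ NG (rf F) := ⟨_, hn₀⟩
    obtain ⟨t, htB, htN, ht⟩ := sub_rep hG hU hn₀N
    have htM : Mon t.1 1 := mem_T.1 (mem_inf.2 ⟨htB, htN⟩)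
    have hn₁M : Mon (n₀ * t).1 Fin.revPerm := by
      have := mon_mul hn₀ htM
      rwa [mul_one] at this
    have hopp₁ : ∀ x ∈ (UG (rf F)).subgroupOf H, (⟨n₀ * t, ht⟩ : ↥H) * x * (⟨n₀ * t, ht⟩ : ↥H)⁻¹ ∈
        (UG (rf F)).subgroupOf H → x = 1 := by
      intro x hx hnx
      set z : ↥(GJ (m + 1) (rf F)) := (n₀ * t) * x.1 * (n₀ * t)⁻¹ with hz
      have hzU : z.1 ∈ UU m F := hnx
      have h3 : LoU z.1 := by
        rw [lou_iff hn₁M]
        have : (n₀ * t).1⁻¹ * z.1 * (n₀ * t).1 = x.1.1 := by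
          rw [hz]
          change (n₀ * t).1⁻¹ * ((n₀ * t).1 * x.1.1 * (n₀ * t).1⁻¹) * (n₀ * t).1 = x.1.1
          group
        rw [this]
        exact hx
      have h4 : z.1 = 1 := by
        refine sl_ext fun i j => ?_
        rw [sl_one]
        rcases lt_trichotomy i j with h | h | h
        · rw [if_neg h.ne, h3.1 i j h]
        · rw [if_pos h, h, h3.2]
        · rw [if_neg h.ne', hzU.1 i j h]
      have h5 : z = 1 := Subtype.ext h4
      have h6 : x.1 = (n₀ * t)⁻¹ * z * (n₀ * t) := by rw [hz]; group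
      rw [h5] at h6
      exact Subtype.ext (by rw [h6]; simp)
    have hn₁N : (⟨n₀ * t, ht⟩ : ↥H) ∈ (NG (rf F)).subgroupOf H := mul_mem hn₀N htN
    have hnn : n⁻¹ * (⟨n₀ * t, ht⟩ : ↥H) ∈ (BG (rf F)).subgroupOf H :=
      h.long_unique (h.long_of_opp hr hnN hopp) (h.long_of_opp hr hn₁N hopp₁)
    have hnM : Mon n.1.1 Fin.revPerm := by
      obtain ⟨w, hw⟩ := mem_NG.1 (show n.1 ∈ NG (rf F) from hnN)
      have h3 : Mon (n.1.1⁻¹ * (n₀ * t).1) (w⁻¹ * Fin.revPerm) := mon_mul (mon_inv hw) hn₁M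
      have h4 : w⁻¹ * Fin.revPerm = 1 := mon_up h3 hnn
      have h5 : w = Fin.revPerm := (inv_mul_eq_one.1 h4)
      rwa [h5] at hw
    -- the type of `s`
    obtain ⟨hsN, a, ⟨τ, hτ, ha⟩, has⟩ := hsS
    have hsM : Mon s.1.1 τ := by
      obtain ⟨w, hw⟩ := mem_NG.1 hsN
      have h3 : Mon (a.1⁻¹ * s.1.1) (τ⁻¹ * w) := mon_mul (mon_inv ha) hw
      have h4 : τ⁻¹ * w = 1 := mon_up h3 has
      rwa [← inv_mul_eq_one.1 h4] at hw
    have hsS' : s ∈ subS (BG (rf F)) (NG (rf F)) (SG (rf F)) H := ⟨hsN, a, ⟨τ, hτ, ha⟩, has⟩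
    have hY : ∀ y : ↥H, (y ∈ Par ((BG (rf F)).subgroupOf H) s ∧
        n⁻¹ * y * n ∈ (UG (rf F)).subgroupOf H) ↔ LoU y.1.1 ∧ Pt τ y.1.1 :=
      fun y => mem_Y_iff h hnM hτ hsM hsS'
    have hfX : ∀ y : ↥H, LoU y.1.1 → Pt τ y.1.1 → LoU (f y).1.1 ∧ Pt τ (f y).1.1 := by
      intro y h3 h4
      obtain ⟨h5, h6⟩ := (hY y).2 ⟨h3, h4⟩
      exact (hY _).1 (hstab y h5 h6)
    have hmul : ∀ A A' : ↥H, LoU A.1.1 → Pt τ A.1.1 → LoU A'.1.1 → Pt τ A'.1.1 →
        Pt τ (A * A').1.1 := by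
      intro A A' h3 h4 h5 h6
      obtain ⟨h7, h8⟩ := (hY A).2 ⟨h3, h4⟩
      obtain ⟨h9, h10⟩ := (hY A').2 ⟨h5, h6⟩
      refine ((hY (A * A')).1 ⟨mul_mem h7 h9, ?_⟩).2
      have : n⁻¹ * (A * A') * n = (n⁻¹ * A * n) * (n⁻¹ * A' * n) := by group
      rw [this]
      exact mul_mem h8 h10
    have hfT' : ∀ t : ↥H, Mon t.1.1 1 → f t = t := by
      intro t ht
      have h3 := mem_inf.1 (mem_T.2 ht)
      exact hfT t h3.1 h3.2
    intro y hyP hyU
    obtain ⟨hlo, hpt⟩ := (hY y).1 ⟨hyP, hyU⟩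
    rcases hτ with ⟨i, h3, h4⟩ | ⟨i, hi⟩
    · have hi : 2 * i.val + 2 = m := by omega
      refine fix_gen (p := p) hH hU hsq (u := i.succ) (v := i.castSucc) ?_ ?_ hmul ?_ ?_ hfp hfT'
        hfX y hlo hpt
      · intro c
        have hth : th (rf F) (yB hi c c (c * c / 2)) = yB hi c c (c * c / 2) := by
          rw [th_yB hrf]
          have e : -(c * c / 2) + c * c = c * c / 2 := by
            field_simp
            ring
          exact congrArg (yB hi c c) e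
        exact ⟨mkG hth, yB_lou hi _ _ _, yB_pt hi _ _ _, yB_10 hi _ _ _⟩
      · intro A A' h5 h6 h7 h8 h9
        exact B_uniq hi h2 h5 h6 h7 h8 h9
      · intro A A' h5 h6 h7 h8
        have h9 := (B_mul hi (A.1.1 i.succ i.castSucc) (A.1.1 (Fin.rev i.castSucc) i.succ)
          (A.1.1 (Fin.rev i.castSucc) i.castSucc) h7).1
        rw [← B_form hi h5 h6] at h9
        exact h9
      · intro a ha
        have ha' : a⁻¹ ≠ 0 := inv_ne_zero ha
        have he := diag2n_mon' (cs_ne i) ha'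
        refine ⟨mkG (th_norm hrf he), mon_norm he, ?_⟩
        change (_ * th (rf F) _ : SLm m F).1 i.succ i.succ *
          ((_ * th (rf F) _ : SLm m F).1 i.castSucc i.castSucc)⁻¹ = a
        rw [norm_diag he, norm_diag he, (B_vals hi).1, diag2n_diag, diag2n_diag, diag2n_diag,
          if_neg (cs_ne i).symm, if_pos rfl, if_pos rfl, if_neg (lt20 hi).ne',
          if_neg (lt21 hi).ne', inv_inv, map_one]
        change a * (a)⁻¹ * (a⁻¹ * 1⁻¹)⁻¹ = a
        field_simp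
    · obtain ⟨c1, c2, c3, c4⟩ := C_ne hi
      refine fix_gen (p := p) hH hU hsq (u := i.succ) (v := i.castSucc) ?_ ?_ hmul ?_ ?_ hfp hfT'
        hfX y hlo hpt
      · intro c
        exact ⟨mkG (th_yC hrf hi c), yC_lou c, yC_pt hi c, yC_apply hi c⟩
      · intro A A' h5 h6 h7 h8 h9
        apply Subtype.ext
        rw [C_sym hrf hi (fixed A) h5 h6, C_sym hrf hi (fixed A') h7 h8, h9]
      · intro A A' h5 h6 h7 h8
        have h9 := C_sym hrf hi (fixed A) h5 h6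
        have h10 := C_sym hrf hi (fixed A') h7 h8
        have h11 : (A * A').1 = yC (rf F) i (A.1.1 i.succ i.castSucc + A'.1.1 i.succ i.castSucc) := by
          rw [yC_add hi, ← h9, ← h10]
          rfl
        rw [h11, yC_apply hi]
      · intro a ha
        -- the middle index
        let k : Fin (m + 1) := ⟨m / 2, by omega⟩
        have hk : Fin.rev k = k := by
          rw [Fin.ext_iff, Fin.val_rev]
          change m + 1 - (m / 2 + 1) = m / 2
          omega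
        have hsk : i.succ ≠ k := by
          rw [Ne, Fin.ext_iff, Fin.val_succ]
          change ¬ i.val + 1 = m / 2
          omega
        have hck : i.castSucc ≠ k := by
          rw [Ne, Fin.ext_iff, Fin.val_castSucc]
          change ¬ i.val = m / 2
          omega
        have e1 : Fin.rev i.succ ≠ i.succ := by
          rw [rev_succ']; exact c3.symm
        have e2 : Fin.rev i.succ ≠ k := fun h => hsk (by rw [← hk, ← h, Fin.rev_rev])
        have e3 : Fin.rev i.castSucc ≠ i.succ := by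
          rw [rev_castSucc']; exact c4.symm
        have e4 : Fin.rev i.castSucc ≠ k := fun h => hck (by rw [← hk, ← h, Fin.rev_rev])
        have he := diag2n_mon' hsk ha
        refine ⟨mkG (th_norm hrf he), mon_norm he, ?_⟩
        change (_ * th (rf F) _ : SLm m F).1 i.succ i.succ *
          ((_ * th (rf F) _ : SLm m F).1 i.castSucc i.castSucc)⁻¹ = a
        rw [norm_diag he, norm_diag he, diag2n_diag, diag2n_diag, diag2n_diag, diag2n_diag,
          if_pos rfl, if_neg e1, if_neg e2, if_neg (cs_ne i), if_neg hck, if_neg e3, if_neg e4,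
          map_one]
        simp

end

end Vale.Agent.P240.R2.H195.Om
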