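import Mathlib.Algebra.Group.End
import Mathlib.Data.Nat.Prime.Defs

namespace Vale.Agent.P240.H195

/-- `L` is isomorphic to a doubly transitive permutation group of degree `r`, for an odd prime
`r ≠ p`. -/
def PrimeDeg (p : ℕ) (L : Type*) [Group L] : Prop :=
  ∃ r : ℕ, r.Prime ∧ 2 < r ∧ r ≠ p ∧ ∃ f : L →* Equiv.Perm (Fin r), Function.Injective f ∧
    ∀ a b c d : Fin r, a ≠ b → c ≠ d → ∃ x : L, f x a = c ∧ f x b = d

end Vale.Agent.P240.H195
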