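import Mathlib.GroupTheory.Perm.Cycle.Type
import Mathlib.Algebra.Polynomial.Expand
import Mathlib.FieldTheory.Finite.Basic
import Mathlib.LinearAlgebra.Matrix.ToLin
import Vale.Agent.P240.H195.CF
import Vale.Agent.P240.R2.H195.PDDef
import Vale.Agent.P240.H195.Eu3

/-!
Doubly transitive groups of prime degree `r` (for example the Mathieu groups of degree 11 and 23): for
every prime `p ≠ r`, an element `s` of order `r` normalizes no nontrivial elementary abelian
`p`-group of automorphisms.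
-/

namespace Vale.Agent.P240.H195

open Subgroup Vale.Agent.P240.K

namespace PD

lemma full_of_order {r : ℕ} (hr : r.Prime) {σ : Equiv.Perm (Fin r)} (h : orderOf σ = r)
    (a b : Fin r) : ∃ i : ℕ, (σ ^ i) a = b := by
  have h1 : σ.IsCycle := Equiv.Perm.isCycle_of_prime_order'' (by simpa using hr) (by simpa using h)
  have h2 : σ.support = Finset.univ := by
    rw [← Finset.card_eq_iff_eq_univ, ← h1.orderOf, h, Fintype.card_fin]
  exact h1.exists_pow_eq (Equiv.Perm.mem_support.1 (h2 ▸ Finset.mem_univ a))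
    (Equiv.Perm.mem_support.1 (h2 ▸ Finset.mem_univ b))

lemma dvd_of_trans {H : Type*} [Group H] [Finite H] {r : ℕ} (ψ : H →* Equiv.Perm (Fin r))
    (o : Fin r) (h : ∀ a, ∃ x, ψ x o = a) : r ∣ Nat.card H := by
  let _ : MulAction H (Fin r) := MulAction.compHom (Fin r) ψ
  have h1 : MulAction.orbit H o = Set.univ := by
    ext a
    simp only [Set.mem_univ, iff_true]
    obtain ⟨x, hx⟩ := h a
    exact ⟨x, hx⟩
  have h2 := MulAction.index_stabilizer H o
  rw [h1, Set.ncard_univ, Nat.card_eq_fintype_card, Fintype.card_fin] at h2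
  rw [← h2]
  exact Subgroup.index_dvd_card _

/-- the permutation matrix -/
def pm (p : ℕ) {r : ℕ} (σ : Equiv.Perm (Fin r)) : Matrix (Fin r) (Fin r) (ZMod p) :=
  fun a b => if a = σ b then 1 else 0

lemma pm_mul {p r : ℕ} (σ : Equiv.Perm (Fin r)) (M : Matrix (Fin r) (Fin r) (ZMod p))
    (a b : Fin r) : (pm p σ * M) a b = M (σ.symm a) b := by
  rw [Matrix.mul_apply, Finset.sum_eq_single (σ.symm a)]
  · simp [pm]
  · intro c _ hc
    have : a ≠ σ c := by
      rintro rfl
      exact hc (by simp)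
    simp [pm, this]
  · intro h
    exact absurd (Finset.mem_univ _) h

lemma mul_pm {p r : ℕ} (σ : Equiv.Perm (Fin r)) (M : Matrix (Fin r) (Fin r) (ZMod p))
    (a b : Fin r) : (M * pm p σ) a b = M a (σ b) := by
  rw [Matrix.mul_apply, Finset.sum_eq_single (σ b)]
  · simp [pm]
  · intro c _ hc
    simp [pm, hc]
  · intro h
    exact absurd (Finset.mem_univ _) h

lemma pm_pow {p r : ℕ} (σ : Equiv.Perm (Fin r)) (n : ℕ) : (pm p σ) ^ n = pm p (σ ^ n) := by
  induction n with
  | zero =>
    ext a b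
    simp [pm, Matrix.one_apply]
  | succ n ih =>
    rw [pow_succ, ih, pow_succ]
    ext a b
    rw [mul_pm]
    rfl

section
variable {L : Type*} [Group L] {p r : ℕ}

/-- the orbit of `(o, o)` under the pairs `(f g, g)` -/
def Rel (φ : L →* Equiv.Perm (Fin r)) (f : MulAut L) (o : Fin r) (a b : Fin r) : Prop :=
  ∃ g : L, φ (f g) o = a ∧ φ g o = b

open Classical in
/-- the matrix of `Rel` -/
noncomputable def mat (p : ℕ) (φ : L →* Equiv.Perm (Fin r)) (f : MulAut L) (o : Fin r) :
    Matrix (Fin r) (Fin r) (ZMod p) :=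
  fun a b => if Rel φ f o a b then 1 else 0

lemma rel_iff {φ : L →* Equiv.Perm (Fin r)} {f : MulAut L} {o : Fin r} (g : L) (a b : Fin r) :
    Rel φ f o (φ (f g) a) (φ g b) ↔ Rel φ f o a b := by
  constructor
  · rintro ⟨x, h1, h2⟩
    refine ⟨g⁻¹ * x, ?_, ?_⟩
    · rw [map_mul, map_mul, Equiv.Perm.mul_apply, h1, map_inv, map_inv]
      exact Equiv.symm_apply_apply _ _
    · rw [map_mul, Equiv.Perm.mul_apply, h2, map_inv]
      exact Equiv.symm_apply_apply _ _
  · rintro ⟨x, h1, h2⟩
    exact ⟨g * x, by rw [map_mul, map_mul, Equiv.Perm.mul_apply, h1],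
      by rw [map_mul, Equiv.Perm.mul_apply, h2]⟩

lemma mat_twist {φ : L →* Equiv.Perm (Fin r)} {f : MulAut L} {o : Fin r} (g : L) :
    pm p (φ (f g)) * mat p φ f o = mat p φ f o * pm p (φ g) := by
  ext a b
  rw [pm_mul, mul_pm]
  have h := rel_iff (φ := φ) (f := f) (o := o) g ((φ (f g)).symm a) b
  rw [Equiv.apply_symm_apply] at h
  classical exact if_congr h.symm rfl rfl

lemma mat_pow {φ : L →* Equiv.Perm (Fin r)} {f : MulAut L} {o : Fin r} (n : ℕ) (g : L) :
    pm p (φ ((f ^ n) g)) * mat p φ f o ^ n = mat p φ f o ^ n * pm p (φ g) := by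
  induction n generalizing g with
  | zero => simp
  | succ n ih =>
    rw [pow_succ (mat p φ f o), ← mul_assoc, pow_succ f, MulAut.mul_apply, ih, mul_assoc, mat_twist,
      mul_assoc]

/-- the off-diagonal entries of the `p`-th power are equal -/
lemma mat_const [Fact p.Prime] {φ : L →* Equiv.Perm (Fin r)} {f : MulAut L} {o : Fin r}
    (h2 : ∀ a b c d : Fin r, a ≠ b → c ≠ d → ∃ x : L, φ x a = c ∧ φ x b = d)
    (hf : f ^ p = 1) {a b c d : Fin r} (hab : a ≠ b) (hcd : c ≠ d) :
    (mat p φ f o ^ p) a b = (mat p φ f o ^ p) c d := by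
  obtain ⟨x, rfl, rfl⟩ := h2 a b c d hab hcd
  have h := mat_pow (p := p) (φ := φ) (f := f) (o := o) p x
  rw [hf, MulAut.one_apply] at h
  have h1 := congrFun (congrFun h (φ x a)) b
  rw [pm_mul, mul_pm, Equiv.symm_apply_apply] at h1
  exact h1

open Classical Polynomial in
/-- the matrix is a polynomial in the matrix of `s` -/
lemma mat_aeval [Fact p.Prime] {φ : L →* Equiv.Perm (Fin r)} {f : MulAut L} {o : Fin r} {s : L}
    (hfs : f s = s) (hr : r.Prime) (hs : orderOf (φ s) = r) :
    ∀ a b, (mat p φ f o ^ p) a b =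
      ∑ i ∈ (Finset.range r).filter (fun i => Rel φ f o ((φ s ^ i) o) o),
        if a = ((φ s) ^ (p * i)) b then 1 else 0 := by
  set I := (Finset.range r).filter (fun i => Rel φ f o ((φ s ^ i) o) o) with hI
  have key : ∀ n : ℕ, ∀ a b, Rel φ f o ((φ s ^ n) a) ((φ s ^ n) b) ↔ Rel φ f o a b := by
    intro n a b
    have h := rel_iff (φ := φ) (f := f) (o := o) (s ^ n) a b
    rwa [map_pow, hfs, map_pow] at h
  have hinj : ∀ b : Fin r, ∀ i ∈ Finset.range r, ∀ j ∈ Finset.range r,
      (φ s ^ i) b = (φ s ^ j) b → i = j := by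
    intro b i hi j hj hij
    have h1 : ∀ c, (φ s ^ i) c = (φ s ^ j) c := by
      intro c
      obtain ⟨k, rfl⟩ := full_of_order hr hs b c
      rw [← Equiv.Perm.mul_apply, ← Equiv.Perm.mul_apply, ← pow_add, ← pow_add, add_comm i,
        add_comm j, pow_add, pow_add, Equiv.Perm.mul_apply, Equiv.Perm.mul_apply, hij]
    have h2 : φ s ^ i = φ s ^ j := Equiv.ext h1
    have h3 := pow_inj_mod.1 h2
    rwa [hs, Nat.mod_eq_of_lt (Finset.mem_range.1 hi), Nat.mod_eq_of_lt (Finset.mem_range.1 hj)]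
      at h3
  have hM : mat p φ f o = aeval (pm p (φ s)) (∑ i ∈ I, (X : (ZMod p)[X]) ^ i) := by
    rw [map_sum]
    ext a b
    rw [Matrix.sum_apply]
    simp only [map_pow, aeval_X, pm_pow]
    obtain ⟨k, hk⟩ := full_of_order hr hs o b
    obtain ⟨i, hi⟩ := full_of_order hr hs b a
    have hi0 := pow_mod_orderOf (φ s) i
    rw [hs] at hi0
    have hi' : (φ s ^ (i % r)) b = a := by rw [hi0, hi]
    have hab : Rel φ f o a b ↔ Rel φ f o ((φ s ^ (i % r)) o) o := by
      rw [← key k ((φ s ^ (i % r)) o) o, hk, ← Equiv.Perm.mul_apply, ← pow_add, add_comm, pow_add,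
        Equiv.Perm.mul_apply, hk, hi']
    have hlt : i % r ∈ Finset.range r := Finset.mem_range.2 (Nat.mod_lt _ hr.pos)
    by_cases h : Rel φ f o a b
    · have hm : i % r ∈ I := Finset.mem_filter.2 ⟨hlt, hab.1 h⟩
      rw [Finset.sum_eq_single_of_mem _ hm]
      · simp [mat, pm, h, hi']
      · intro j hj hne
        have : a ≠ (φ s ^ j) b := by
          intro he
          exact hne (hinj b j (Finset.mem_filter.1 hj).1 _ hlt (by rw [← he, hi']))
        simp [pm, this]
    · rw [Finset.sum_eq_zero]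
      · simp [mat, h]
      · intro j hj
        have : a ≠ (φ s ^ j) b := by
          intro he
          have h1 := hinj b j (Finset.mem_filter.1 hj).1 _ hlt (by rw [← he, hi'])
          exact h (hab.2 (h1 ▸ (Finset.mem_filter.1 hj).2))
        simp [pm, this]
  intro a b
  rw [hM, ← map_pow, ← ZMod.expand_card, expand_aeval, map_sum, Matrix.sum_apply]
  refine Finset.sum_congr rfl fun i _ => ?_
  rw [map_pow, aeval_X, ← pow_mul, pm_pow]
  rfl

/-- **the main lemma**: an automorphism `f` with `f ^ p = 1` that fixes an element of order `r` is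
trivial -/
theorem aut_eq_one [hp : Fact p.Prime] [Finite L] {φ : L →* Equiv.Perm (Fin r)}
    (hφ : Function.Injective φ) (hr : r.Prime) (hrp : r ≠ p)
    (h2 : ∀ a b c d : Fin r, a ≠ b → c ≠ d → ∃ x : L, φ x a = c ∧ φ x b = d)
    {s : L} (hs : orderOf s = r) {f : MulAut L} (hf : f ^ p = 1) (hfs : f s = s) : f = 1 := by
  classical
  have hs' : orderOf (φ s) = r := by rw [orderOf_injective φ hφ, hs]
  let o : Fin r := ⟨0, hr.pos⟩
  have hcop : Nat.Coprime r p := (Nat.coprime_primes hr hp.out).2 hrp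
  -- powers of `s ^ p`
  have hinj : ∀ b : Fin r, ∀ i ∈ Finset.range r, ∀ j ∈ Finset.range r,
      (φ s ^ (p * i)) b = (φ s ^ (p * j)) b → i = j := by
    intro b i hi j hj hij
    have h1 : ∀ c, (φ s ^ (p * i)) c = (φ s ^ (p * j)) c := by
      intro c
      obtain ⟨k, rfl⟩ := full_of_order hr hs' b c
      rw [← Equiv.Perm.mul_apply, ← Equiv.Perm.mul_apply, ← pow_add, ← pow_add, add_comm (p * i),
        add_comm (p * j), pow_add, pow_add, Equiv.Perm.mul_apply, Equiv.Perm.mul_apply, hij]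
    have h2 : φ s ^ (p * i) = φ s ^ (p * j) := Equiv.ext h1
    have h3 := pow_inj_mod.1 h2
    rw [hs'] at h3
    have h4 : i ≡ j [MOD r] := Nat.ModEq.cancel_left_of_coprime hcop h3
    have h5 : i % r = j % r := h4
    rwa [Nat.mod_eq_of_lt (Finset.mem_range.1 hi), Nat.mod_eq_of_lt (Finset.mem_range.1 hj)] at h5
  have hval : ∀ i ∈ Finset.range r, (mat p φ f o ^ p) ((φ s ^ (p * i)) o) o =
      if Rel φ f o ((φ s ^ i) o) o then 1 else 0 := by
    intro i hi
    rw [mat_aeval hfs hr hs']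
    by_cases h : Rel φ f o ((φ s ^ i) o) o
    · rw [Finset.sum_eq_single_of_mem i (Finset.mem_filter.2 ⟨hi, h⟩)]
      · simp [h]
      · intro j hj hne
        rw [if_neg]
        intro he
        exact hne (hinj o j (Finset.mem_filter.1 hj).1 i hi he.symm)
    · rw [Finset.sum_eq_zero, if_neg h]
      intro j hj
      rw [if_neg]
      intro he
      have h1 := hinj o j (Finset.mem_filter.1 hj).1 i hi he.symm
      exact h (h1 ▸ (Finset.mem_filter.1 hj).2)
  -- either all points are related to `o`, or only `o`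
  by_cases hall : ∃ i ∈ Finset.range r, i ≠ 0 ∧ Rel φ f o ((φ s ^ i) o) o
  · exfalso
    obtain ⟨i, hi, hi0, hR⟩ := hall
    have hne : ∀ j ∈ Finset.range r, j ≠ 0 → (φ s ^ (p * j)) o ≠ o := by
      intro j hj hj0 he
      refine hj0 (hinj o j hj 0 (Finset.mem_range.2 hr.pos) ?_)
      rw [he, mul_zero, pow_zero, Equiv.Perm.one_apply]
    have hfull : ∀ j ∈ Finset.range r, Rel φ f o ((φ s ^ j) o) o := by
      intro j hj
      by_cases hj0 : j = 0
      · subst hj0
        exact ⟨1, by simp, by simp⟩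
      have h3 := mat_const (o := o) h2 hf (hne i hi hi0) (hne j hj hj0)
      rw [hval i hi, hval j hj, if_pos hR] at h3
      by_contra hcon
      rw [if_neg hcon] at h3
      exact one_ne_zero h3
    -- the group `f H` is transitive
    let H : Subgroup L := (MulAction.stabilizer (Equiv.Perm (Fin r)) o).comap φ
    have htr : r ∣ Nat.card H := by
      refine dvd_of_trans ((φ.comp f.toMonoidHom).comp H.subtype) o fun a => ?_
      obtain ⟨i, rfl⟩ := full_of_order hr hs' o a
      obtain ⟨g, hg1, hg2⟩ := hfull (i % r) (Finset.mem_range.2 (Nat.mod_lt _ hr.pos))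
      refine ⟨⟨g, hg2⟩, ?_⟩
      have hi0 := pow_mod_orderOf (φ s) i
      rw [hs'] at hi0
      rw [hi0] at hg1
      exact hg1
    have : Fact r.Prime := ⟨hr⟩
    obtain ⟨h, hh⟩ := exists_prime_orderOf_dvd_card' r htr
    have hh' : orderOf (φ (h : L)) = r := by
      rw [orderOf_injective φ hφ, Subgroup.orderOf_coe, hh]
    have hfix : φ (h : L) o = o := h.2
    have hall : ∀ b, b = o := by
      intro b
      obtain ⟨k, rfl⟩ := full_of_order hr hh' o b
      clear hh hh'
      induction k with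
      | zero => simp
      | succ k ih => rw [pow_succ, Equiv.Perm.mul_apply, hfix, ih]
    have := hall ⟨1, hr.one_lt⟩
    simp [o] at this
  · push Not at hall
    have hH : ∀ g : L, φ g o = o → φ (f g) o = o := by
      intro g hg
      obtain ⟨i, hi⟩ := full_of_order hr hs' o (φ (f g) o)
      have hi0 := pow_mod_orderOf (φ s) i
      rw [hs'] at hi0
      rw [← hi0] at hi
      by_cases h0 : i % r = 0
      · rw [h0, pow_zero, Equiv.Perm.one_apply] at hi
        exact hi.symm
      · exact absurd ⟨g, hi.symm, hg⟩ (hall _ (Finset.mem_range.2 (Nat.mod_lt _ hr.pos)) h0)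
    ext g
    rw [MulAut.one_apply]
    refine hφ (Equiv.ext fun b => ?_)
    obtain ⟨j, rfl⟩ := full_of_order hr hs' o b
    obtain ⟨i, hi⟩ := full_of_order hr hs' o (φ g ((φ s ^ j) o))
    have hfs' : f (s ^ j) = s ^ j := by rw [map_pow, hfs]
    have hfs'' : f (s ^ i) = s ^ i := by rw [map_pow, hfs]
    have h3 := hH ((s ^ i)⁻¹ * g * s ^ j) (by
      rw [map_mul, map_mul, map_inv, Equiv.Perm.mul_apply, Equiv.Perm.mul_apply, map_pow, map_pow,
        ← hi]
      exact Equiv.symm_apply_apply _ _)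
    rw [map_mul f, map_mul f, map_inv f, hfs', hfs'', map_mul, map_mul, map_inv,
      Equiv.Perm.mul_apply, Equiv.Perm.mul_apply, map_pow, map_pow] at h3
    have h4 : (φ s ^ i) o = φ (f g) ((φ s ^ j) o) := by
      have h5 := congrArg (φ s ^ i) h3
      rw [← h5]
      exact Equiv.apply_symm_apply _ _
    rw [← h4, hi]

/-- the centre is trivial -/
lemma center {φ : L →* Equiv.Perm (Fin r)} (hφ : Function.Injective φ) (hr2 : 2 < r)
    (h2 : ∀ a b c d : Fin r, a ≠ b → c ≠ d → ∃ x : L, φ x a = c ∧ φ x b = d) {z : L}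
    (hz : ∀ y, z * y = y * z) : z = 1 := by
  classical
  refine hφ (Equiv.ext fun a => ?_)
  rw [map_one, Equiv.Perm.one_apply]
  by_contra hne
  have hcard : ({a, φ z a} : Finset (Fin r)).card < (Finset.univ : Finset (Fin r)).card := by
    rw [Finset.card_univ, Fintype.card_fin]
    exact lt_of_le_of_lt Finset.card_le_two hr2
  obtain ⟨c, -, hc⟩ := Finset.exists_mem_notMem_of_card_lt_card hcard
  simp only [Finset.mem_insert, Finset.mem_singleton, not_or] at hc
  obtain ⟨x, hx1, hx2⟩ := h2 a (φ z a) a c (Ne.symm hne) (Ne.symm hc.1)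
  apply hc.2
  rw [← hx2, ← Equiv.Perm.mul_apply, ← map_mul, ← hz, map_mul, Equiv.Perm.mul_apply, hx1]

/-- an element of order `r` normalizes no nontrivial `p`-subgroup -/
lemma sub_bot [hp : Fact p.Prime] {φ : L →* Equiv.Perm (Fin r)}
    (hφ : Function.Injective φ) (hr : r.Prime) (hrp : r ≠ p) {s : L} (hs : orderOf s = r)
    {E : Subgroup L} (hE : IsPGroup p E) (hsE : s ∈ normalizer (E : Set L)) : E = ⊥ := by
  have hs' : orderOf (φ s) = r := by rw [orderOf_injective φ hφ, hs]
  let _ : MulAction E (Fin r) := MulAction.compHom (Fin r) (φ.comp E.subtype)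
  have hnd : ¬ p ∣ Nat.card (Fin r) := by
    rw [Nat.card_eq_fintype_card, Fintype.card_fin]
    intro h
    exact hrp ((Nat.prime_dvd_prime_iff_eq hp.out hr).1 h).symm
  obtain ⟨a, ha⟩ := hE.nonempty_fixed_point_of_prime_not_dvd_card (Fin r) hnd
  have ha' : ∀ x ∈ E, φ x a = a := fun x hx => ha ⟨x, hx⟩
  rw [eq_bot_iff]
  intro x hx
  rw [mem_bot]
  refine hφ (Equiv.ext fun b => ?_)
  rw [map_one, Equiv.Perm.one_apply]
  obtain ⟨i, rfl⟩ := full_of_order hr hs' a b
  have hn : (s ^ i)⁻¹ * x * ((s ^ i)⁻¹)⁻¹ ∈ E :=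
    (mem_normalizer_iff.1 (inv_mem (pow_mem hsE i)) x).1 hx
  have h1 := ha' _ hn
  rw [inv_inv, map_mul, map_mul, map_inv, Equiv.Perm.mul_apply, Equiv.Perm.mul_apply, map_pow] at h1
  have h2 := congrArg (φ s ^ i) h1
  rw [← h2]
  nth_rewrite 1 [h1]
  exact (Equiv.apply_symm_apply _ _).symm

end

end PD

section
variable {L : Type*} [Group L] {p : ℕ}

/-- no nontrivial elementary abelian `p`-group of automorphisms is normalized by an element of prime
order `r ≠ p`, if `r` is the degree -/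
theorem PrimeDeg.cyc [hp : Fact p.Prime] (h : PrimeDeg p L) :
    (∀ z : L, (∀ y, z * y = y * z) → z = 1) ∧ ∃ r : ℕ, r.Prime ∧ ∃ s : L, orderOf s = r ∧
      ∀ E : Subgroup (MulAut L), ElemAb p E →
        MulAut.conj s ∈ normalizer (E : Set (MulAut L)) → False := by
  obtain ⟨r, hr, hr2, hrp, φ, hφ, h2⟩ := h
  have hfin : Finite L := Finite.of_injective φ hφ
  have hZ : ∀ z : L, (∀ y, z * y = y * z) → z = 1 := fun z hz => PD.center hφ hr2 h2 hz
  refine ⟨hZ, r, hr, ?_⟩
  have hfr : Fact r.Prime := ⟨hr⟩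
  have hd : r ∣ Nat.card L := by
    refine PD.dvd_of_trans φ ⟨0, hr.pos⟩ fun a => ?_
    by_cases ha : a = ⟨0, hr.pos⟩
    · exact ⟨1, by rw [map_one, Equiv.Perm.one_apply, ha]⟩
    · obtain ⟨x, hx, -⟩ := h2 ⟨0, hr.pos⟩ a a ⟨0, hr.pos⟩ (Ne.symm ha) ha
      exact ⟨x, hx⟩
  obtain ⟨s, hs⟩ := exists_prime_orderOf_dvd_card' r hd
  refine ⟨s, hs, fun E hE hsE => ?_⟩
  -- the inner part is trivial
  have hin : ∀ x : L, MulAut.conj x ∈ E → x = 1 := by
    have hpg : IsPGroup p (E.comap (MulAut.conj (G := L))) := by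
      intro x
      refine ⟨1, ?_⟩
      have h1 : MulAut.conj ((x : L) ^ p) = 1 := by
        rw [map_pow]
        exact hE.2.2 _ x.2
      have h2 : (x : L) ^ p = 1 := by
        refine hZ _ fun y => ?_
        have h3 := congrArg (fun f : MulAut L => f y) h1
        simp only [MulAut.conj_apply, MulAut.one_apply] at h3
        rwa [mul_inv_eq_iff_eq_mul] at h3
      rw [pow_one]
      exact Subtype.ext h2
    have hn : s ∈ normalizer ((E.comap (MulAut.conj (G := L)) : Subgroup L) : Set L) := by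
      rw [mem_normalizer_iff]
      intro y
      have h1 := mem_normalizer_iff.1 hsE (MulAut.conj y)
      rw [← map_inv, ← map_mul, ← map_mul] at h1
      exact h1
    have hbot := PD.sub_bot hφ hr hrp hs hpg hn
    intro x hx
    have : x ∈ E.comap (MulAut.conj (G := L)) := hx
    rwa [hbot, mem_bot] at this
  apply hE.1
  rw [eq_bot_iff]
  intro f hf
  rw [mem_bot]
  have hcomm : MulAut.conj (f s * s⁻¹) = f * (MulAut.conj s * f⁻¹ * (MulAut.conj s)⁻¹) := by
    have h3 : MulAut.conj (f s) = f * MulAut.conj s * f⁻¹ := by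
      ext y
      simp [MulAut.conj_apply]
    rw [map_mul, h3, map_inv]
    group
  have hmem : MulAut.conj (f s * s⁻¹) ∈ E := by
    rw [hcomm]
    exact mul_mem hf ((mem_normalizer_iff.1 hsE _).1 (inv_mem hf))
  have hfs : f s = s := by
    have := hin _ hmem
    rwa [mul_inv_eq_one] at this
  exact PD.aut_eq_one hφ hr hrp h2 hs (hE.2.2 f hf) hfs

theorem PrimeDeg.cycFree [hp : Fact p.Prime] (h : PrimeDeg p L) : CycFree p L := by
  obtain ⟨-, -, -, s, -, hs⟩ := h.cyc
  exact ⟨s, hs⟩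

theorem PrimeDeg.autFree [hp : Fact p.Prime] (h : PrimeDeg p L) :
    ∃ r : ℕ, r.Prime ∧ AutFree p r L := by
  obtain ⟨-, r, hr, s, hs, hE⟩ := h.cyc
  refine ⟨r, hr, zpowers s, ?_, fun E h1 h2 => hE E h1 (h2 ⟨s, mem_zpowers s, rfl⟩)⟩
  refine IsPGroup.of_card (n := 1) ?_
  rw [Nat.card_zpowers, hs, pow_one]

theorem PrimeDeg.euFree [hp : Fact p.Prime] (h : PrimeDeg p L) : EuFree p L := by
  obtain ⟨hZ, r, hr, s, hs, hE⟩ := h.cyc
  have hfin : Finite L := by
    obtain ⟨_, _, _, _, φ, hφ, _⟩ := h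
    exact Finite.of_injective φ hφ
  refine ⟨s, ?_, fun f hf hfi hfs => ?_⟩
  · have h0 : {E | E ∈ Ain p (⊤ : Subgroup L) ∧ s ∈ normalizer (E : Set L)} = ∅ := by
      ext E
      simp only [Set.mem_ofPred_eq, Set.mem_empty_iff_false, iff_false]
      rintro ⟨⟨h1, -⟩, h3⟩
      refine hE (E.map MulAut.conj) ⟨?_, ?_, ?_⟩ ?_
      · intro hb
        apply h1.1
        rw [eq_bot_iff]
        intro x hx
        have h4 : MulAut.conj x ∈ E.map MulAut.conj := ⟨x, hx, rfl⟩
        rw [hb, mem_bot] at h4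
        refine hZ x fun y => ?_
        have h5 := congrArg (fun f : MulAut L => f y) h4
        simp only [MulAut.conj_apply, MulAut.one_apply] at h5
        rwa [mul_inv_eq_iff_eq_mul] at h5
      · rintro _ ⟨x, hx, rfl⟩ _ ⟨y, hy, rfl⟩
        rw [← map_mul, ← map_mul, h1.2.1 x hx y hy]
      · rintro _ ⟨x, hx, rfl⟩
        rw [← map_pow, h1.2.2 x hx, map_one]
      · have h6 : (normalizer (E : Set L)).map MulAut.conj ≤
            normalizer ((E.map MulAut.conj : Subgroup (MulAut L)) : Set (MulAut L)) :=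
          le_normalizer_map _
        exact h6 ⟨s, h3, rfl⟩
    rw [eulerFix_eq, lam, h0, eu_empty]
    exact one_ne_zero
  · refine hE (zpowers f) ⟨?_, ?_, ?_⟩ ?_
    · rw [Ne, zpowers_eq_bot]
      rintro rfl
      exact hfi (one_mem _)
    · rintro _ ⟨i, rfl⟩ _ ⟨j, rfl⟩
      exact (Commute.refl f).zpow_zpow i j
    · rintro _ ⟨i, rfl⟩
      change (f ^ i) ^ p = 1
      rw [← zpow_natCast, zpow_comm, zpow_natCast, hf, one_zpow]
    · have h7 : Commute (MulAut.conj s) f := by
        have h8 : MulAut.conj (f s) = f * MulAut.conj s * f⁻¹ := by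
          ext y
          simp [MulAut.conj_apply]
        rw [hfs] at h8
        exact eq_mul_inv_iff_mul_eq.1 h8
      refine mem_of_comm ?_
      rintro _ ⟨i, rfl⟩
      exact h7.zpow_right i

theorem PrimeDeg.good {𝕜 : Type*} [Field 𝕜] {l : ℕ} [hp : Fact p.Prime] (h : PrimeDeg p L) :
    GoodFactor 𝕜 p l L := by
  by_cases hd : p ∣ Nat.card L
  · exact Or.inr (Or.inr (Or.inl ⟨h.euFree, hd⟩))
  · obtain ⟨r, hr, hA⟩ := h.autFree
    exact Or.inr (Or.inr (Or.inr (Or.inl ⟨r, hr, hA, Or.inr (Or.inr (Or.inr hd))⟩)))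

end

end Vale.Agent.P240.H195
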