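import Vale.Agent.P240.R2.AS.Stmts3

/-!
The two small index lemmas for the assembly.
-/

set_option autoImplicit false

namespace Vale.Agent.P240.R2.H195

open Matrix Vale.Agent.P240.R2.AS
open scoped Classical

universe u v

/-- a finite cyclic group of exponent dividing `p` has order dividing `p` -/
lemma card_dvd_of_pow {C : Type*} [Group C] [IsCyclic C] {p : ℕ} (h : ∀ x : C, x ^ p = 1) :
    Nat.card C ∣ p := by
  obtain ⟨g, hg⟩ := IsCyclic.exists_generator (α := C)
  rw [← orderOf_eq_card_of_forall_mem_zpowers hg]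
  exact orderOf_dvd_of_pow_eq_one (h g)

lemma relIndex_ker_dvd {G C : Type*} [Group G] [Group C] [IsCyclic C] (f : G →* C) {p : ℕ}
    (E : Subgroup G) (h : ∀ x ∈ E, x ^ p = 1) : f.ker.relIndex E ∣ p := by
  have h1 : f.ker.subgroupOf E = (f.comp E.subtype).ker := by
    ext x
    simp [Subgroup.mem_subgroupOf, MonoidHom.mem_ker]
  rw [Subgroup.relIndex, h1, Subgroup.index_ker]
  apply card_dvd_of_pow
  rintro ⟨x, y, rfl⟩
  apply Subtype.ext
  have : (f.comp E.subtype y) ^ p = 1 := by
    rw [← map_pow]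
    have : y ^ p = 1 := Subtype.ext (h y.1 y.2)
    rw [this, map_one]
  exact this

variable {K : Type u} [Field K] [StarRing K] {n : ℕ}

/-- the determinant as a homomorphism to the units -/
noncomputable def dt (K : Type u) [Field K] [StarRing K] (n : ℕ) : GU K n →* Kˣ :=
  ((Matrix.detMonoidHom (n := Fin n) (R := K)).comp (Submonoid.subtype _)).toHomUnits

lemma dt_ker : (dt K n).ker = SU K n := by
  ext x
  rw [MonoidHom.mem_ker, Units.ext_iff]
  rfl

instance PSU_normal : (PSU K n).Normal := by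
  have h : (SU K n).Normal := by
    rw [← dt_ker]
    infer_instance
  exact Subgroup.Normal.map h _ (QuotientGroup.mk'_surjective _)

instance cyc_quot [Finite K] : IsCyclic (PGU K n ⧸ PSU K n) := by
  obtain ⟨⟨_, g, rfl⟩, hg⟩ := IsCyclic.exists_generator (α := (dt K n).range)
  refine ⟨⟨QuotientGroup.mk (QuotientGroup.mk g), fun y => ?_⟩⟩
  obtain ⟨y, rfl⟩ := QuotientGroup.mk_surjective y
  obtain ⟨x, rfl⟩ := QuotientGroup.mk_surjective y
  obtain ⟨k, hk⟩ := hg ⟨dt K n x, x, rfl⟩
  refine ⟨k, ?_⟩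
  have hk' : dt K n (g ^ k) = dt K n x := by
    have := congrArg Subtype.val hk
    rw [map_zpow]
    exact this
  have hs : (g ^ k)⁻¹ * x ∈ SU K n := by
    rw [← dt_ker, MonoidHom.mem_ker, map_mul, map_inv, hk', inv_mul_cancel]
  show ((QuotientGroup.mk (QuotientGroup.mk g) : PGU K n ⧸ PSU K n)) ^ k = _
  rw [← QuotientGroup.mk_zpow, ← QuotientGroup.mk_zpow, QuotientGroup.eq]
  exact ⟨_, hs, by simp⟩

theorem stmtREL : StmtREL.{u} := by
  intro K _ _ _ p _ n E _ hp
  rw [Subgroup.relIndex_sup_left]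
  have := relIndex_ker_dvd (QuotientGroup.mk' (PSU K n)) E hp
  rwa [QuotientGroup.ker_mk'] at this

/-- the automorphism group of a finite field is cyclic -/
lemma cyc_aut (K : Type u) [Field K] [Finite K] : IsCyclic (RingAut K) := by
  obtain ⟨ℓ, hℓ⟩ := CharP.exists K
  have : Fact ℓ.Prime := ⟨CharP.char_is_prime K ℓ⟩
  let _ : Algebra (ZMod ℓ) K := ZMod.algebra K ℓ
  let f : (K ≃ₐ[ZMod ℓ] K) →* RingAut K :=
    { toFun := fun s => s.toRingEquiv
      map_one' := rfl
      map_mul' := fun _ _ => rfl }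
  refine isCyclic_of_surjective f fun s => ?_
  refine ⟨AlgEquiv.ofRingEquiv (f := s) fun x => ?_, ?_⟩
  · obtain ⟨k, rfl⟩ := ZMod.intCast_surjective x
    simp
  · ext x
    rfl

theorem stmtCYC : StmtCYC.{u} := by
  intro K _ _ _ p hp n E _ hE
  have hc : IsCyclic (RingAut K) := cyc_aut K
  have hd : (SemidirectProduct.rightHom : PGamU K n →* SA K).ker.relIndex E ∣ p :=
    relIndex_ker_dvd _ E hE
  have h1 := Subgroup.relIndex_mul_relIndex ⊥
    (E ⊓ (SemidirectProduct.rightHom : PGamU K n →* SA K).ker) E bot_le inf_le_left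
  rw [Subgroup.relIndex_bot_left, Subgroup.relIndex_bot_left, Subgroup.inf_relIndex_left] at h1
  rw [← h1, mul_comm]
  exact Nat.mul_le_mul_right _ (Nat.le_of_dvd hp.out.pos hd)

end Vale.Agent.P240.R2.H195
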