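import Vale.Agent.P240.H195.BNFix

/-!
Automorphisms that stabilize `B`, the minimal parabolic subgroups over `B` and an opposite chamber,
and that centralize the opposite root subgroups of all simple reflections, are trivial.
-/

namespace Vale.Agent.P240.H195

open Subgroup Vale.Agent.P240.K

universe u

section
variable {L : Type u} [Group L] {B N U : Subgroup L} {S : Set L} {r : ℕ}

namespace SB

variable (h : SB r B N U S)
include h

lemma long_of_opp [Finite L] (hr : r.Prime) {n : L} (hn : n ∈ N)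
    (hopp : ∀ x ∈ U, n * x * n⁻¹ ∈ U → x = 1) : h.toBN0.Long n := by
  refine ⟨hn, fun s hs hrg => ?_⟩
  obtain ⟨x, hxU, hnx, hxs⟩ := h.transit' hr hn hs hrg
  apply hxs
  rw [hopp x hxU hnx]
  simp

omit h in
lemma opp_inv {n : L} (hopp : ∀ x ∈ U, n * x * n⁻¹ ∈ U → x = 1) :
    ∀ x ∈ U, n⁻¹ * x * n⁻¹⁻¹ ∈ U → x = 1 := by
  intro x hx hnx
  have h1 := hopp _ hnx (by
    have : n * (n⁻¹ * x * n⁻¹⁻¹) * n⁻¹ = x := by group
    rwa [this])
  have : x = n * (n⁻¹ * x * n⁻¹⁻¹) * n⁻¹ := by group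
  rw [this, h1]
  group

/-- an automorphism that moves all elements inside their cosets of `B` is trivial -/
lemma eq_one_of_all (hsimple : IsSimpleGroup L) {e : MulAut L} (hall : ∀ g, g⁻¹ * e g ∈ B) :
    e = 1 := by
  ext x
  rw [MulAut.one_apply]
  set c := x⁻¹ * e x with hc
  have hcB : ∀ g, g * c * g⁻¹ ∈ B := by
    intro g
    have h1 := hall (x * g⁻¹)
    have h2 := hall g⁻¹
    rw [map_mul] at h1
    have e1 : (x * g⁻¹)⁻¹ * (e x * e g⁻¹) = g * c * g⁻¹ * (g⁻¹⁻¹ * e g⁻¹) := by rw [hc]; group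
    rw [e1] at h1
    exact (mul_mem_cancel_right h2).1 h1
  have hle : normalClosure ({c} : Set L) ≤ B := by
    unfold normalClosure
    rw [closure_le]
    intro y hy
    rw [Group.mem_conjugatesOfSet_iff] at hy
    obtain ⟨z, hz, hzy⟩ := hy
    rw [Set.mem_singleton_iff] at hz
    subst hz
    rw [isConj_iff] at hzy
    obtain ⟨g, rfl⟩ := hzy
    exact hcB g
  rcases hsimple.eq_bot_or_eq_top_of_normal _ (normalClosure_normal (s := ({c} : Set L))) with h4 | h4
  · have h5 : c ∈ normalClosure ({c} : Set L) := subset_normalClosure rfl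
    rw [h4, mem_bot] at h5
    have : e x = x * c := by rw [hc]; group
    rw [this, h5, mul_one]
  · exfalso
    obtain ⟨s, hs⟩ := h.nonempty
    exact h.not_mem hs (hle (by rw [h4]; exact mem_top s))

/-- the standard apartment is fixed -/
lemma apart [Finite L] (hr : r.Prime) {e : MulAut L} (hB : ∀ x ∈ B, e x ∈ B)
    (hP : ∀ s ∈ S, ∀ x ∈ Par B s, e x ∈ Par B s) {n : L} (hn : n ∈ N)
    (hopp : ∀ x ∈ U, n * x * n⁻¹ ∈ U → x = 1) (hen : n⁻¹ * e n ∈ B) :
    ∀ m ∈ N, m⁻¹ * e m ∈ B := by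
  have hlong := h.long_of_opp hr hn hopp
  have key : ∀ k, ∀ m ∈ N, Nat.card (U ⊓ cj m U : Subgroup L) = k → m⁻¹ * e m ∈ B := by
    intro k
    induction k using Nat.strong_induction_on with
    | _ k ih =>
      intro m hm hk
      by_cases hex : ∃ s ∈ S, RG B m s
      · obtain ⟨s, hs, hrg⟩ := hex
        have hmsN : m * s ∈ N := mul_mem hm (h.sub s hs)
        have h1 := ih _ (hk ▸ h.inter_lt hr hm hs hrg) (m * s) hmsN rfl
        set y := m⁻¹ * e m with hy
        have hyP : y ∈ Par B s := by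
          have e3 : y = s * ((m * s)⁻¹ * e (m * s)) * (e s)⁻¹ := by
            rw [hy, map_mul]; group
          rw [e3]
          exact mul_mem (mul_mem self_mem_Par (le_Par h1)) (inv_mem (hP s hs s self_mem_Par))
        by_contra hyB
        obtain ⟨v, hv, d, hd, hvd⟩ := h.coset_form hs hyP hyB
        have h2 : DC B (m * s) (e m) := by
          have e5 : e m = m * v * s * d := by
            have : e m = m * y := by rw [hy]; group
            rw [this, hvd]
            group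
          rw [e5]
          exact (hrg v (h.le hv)).right hd
        -- `e m` lies in `B m s B`, which is the image of `B m s B`
        have h3 : DC B (e (m * s)) (e m) := by
          refine DC.trans ?_ h2
          exact (DC_of_inv (by
            have := inv_mem h1
            rwa [mul_inv_rev, inv_inv] at this))
        have hBe : ∀ b ∈ B, ∃ b' ∈ B, e b' = b := by
          have hinj : Function.Surjective (fun b : B => (⟨e b, hB b b.2⟩ : B)) :=
            Finite.surjective_of_injective fun a b hab => by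
              have := congrArg Subtype.val hab
              exact Subtype.ext (e.injective this)
          intro b hb
          obtain ⟨b', hb'⟩ := hinj ⟨b, hb⟩
          exact ⟨b', b'.2, congrArg Subtype.val hb'⟩
        obtain ⟨a, ha, b, hb, hab⟩ := h3
        obtain ⟨a', ha', rfl⟩ := hBe a ha
        obtain ⟨b', hb', rfl⟩ := hBe b hb
        rw [← map_mul, ← map_mul] at hab
        have h4 : DC B (m * s) m := ⟨a', ha', b', hb', e.injective hab⟩
        have h5 := h.inj hm hmsN h4.symm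
        rw [inv_mul_cancel_left] at h5
        exact h.not_mem hs h5
      · push Not at hex
        have h1 := h.long_unique hlong (w' := m) ⟨hm, hex⟩
        have e1 : m = n * (n⁻¹ * m) := by group
        rw [e1, map_mul]
        have e2 : (n * (n⁻¹ * m))⁻¹ * (e n * e (n⁻¹ * m)) =
            (n⁻¹ * m)⁻¹ * (n⁻¹ * e n) * e (n⁻¹ * m) := by group
        rw [e2]
        exact mul_mem (mul_mem (inv_mem h1) hen) (hB _ h1)
  exact fun m hm => key _ m hm rfl

/-- `n⁻¹ s` is shorter than `n⁻¹` -/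
lemma rg_opp [Finite L] (hr : r.Prime) {n : L} (hn : n ∈ N)
    (hopp : ∀ x ∈ U, n * x * n⁻¹ ∈ U → x = 1) {s : L} (hs : s ∈ S) : RG B (n⁻¹ * s) s :=
  (h.rg_or (inv_mem hn) hs).resolve_left ((h.long_of_opp hr (inv_mem hn) (opp_inv hopp)).2 s hs)

lemma opp_conj [Finite L] (hr : r.Prime) {n : L} (hn : n ∈ N)
    (hopp : ∀ x ∈ U, n * x * n⁻¹ ∈ U → x = 1) {s y : L} (hs : s ∈ S) (hy : y ∈ Par B s)
    (hny : n⁻¹ * y * n ∈ U) : s⁻¹ * y * s ∈ B := by
  by_contra hcon
  have hsP : s⁻¹ * y * s ∈ Par B s := mul_mem (mul_mem (inv_mem self_mem_Par) hy) self_mem_Par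
  obtain ⟨v, hv, d, hd, hvd⟩ := h.coset_form hs hsP hcon
  have hsN := h.sub s hs
  have h1 : DC B (n⁻¹ * s * s) (n⁻¹ * s * (s⁻¹ * y * s)) := by
    have e1 : n⁻¹ * s * (s⁻¹ * y * s) = n⁻¹ * s * v * s * d := by rw [hvd]; group
    rw [e1]
    exact (h.rg_opp hr hn hopp hs v (h.le hv)).right hd
  have h2 : DC B (n⁻¹ * s) (n⁻¹ * s * (s⁻¹ * y * s)) :=
    ⟨n⁻¹ * y * n, h.le hny, 1, one_mem _, by group⟩
  have hnN : n⁻¹ * s ∈ N := mul_mem (inv_mem hn) hsN
  have h3 := h.inj hnN (mul_mem hnN hsN) (h2.trans h1.symm)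
  rw [inv_mul_cancel_left] at h3
  exact h.not_mem hs h3

/-- the chambers of a panel: one of them is `s B`, the others are in the orbit of the opposite root
subgroup -/
lemma panel [Finite L] (hr : r.Prime) {n : L} (hn : n ∈ N)
    (hopp : ∀ x ∈ U, n * x * n⁻¹ ∈ U → x = 1) {s g : L} (hs : s ∈ S) (hg : g ∈ Par B s) :
    s⁻¹ * g ∈ B ∨ ∃ y ∈ Par B s, n⁻¹ * y * n ∈ U ∧ y⁻¹ * g ∈ B := by
  have hsN := h.sub s hs
  have hnN := inv_mem hn
  have hd : DC B n⁻¹ (n⁻¹ * g) ∨ DC B (n⁻¹ * s) (n⁻¹ * g) := by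
    rcases (h.mem_Par hs).1 hg with hgB | ⟨b, hb, b', hb', rfl⟩
    · exact Or.inl ⟨1, one_mem _, g, hgB, by group⟩
    · have e1 : n⁻¹ * (b * s * b') = n⁻¹ * b * s * b' := by group
      rw [e1]
      exact (h.mul' hs hb hnN).imp (fun h1 => h1.right hb') (fun h1 => h1.right hb')
  rcases hd with ⟨a, ha, b, hb, hab⟩ | ⟨a, ha, b, hb, hab⟩
  · right
    obtain ⟨u, hu, t, htB, htN, rfl⟩ := h.split a ha
    have ht := h.norm n hn t htB htN
    have e1 : (n * u * n⁻¹)⁻¹ * g = n * t * n⁻¹ * b := by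
      have : g = n * (n⁻¹ * g) := by group
      rw [this, hab]
      group
    have hB : (n * u * n⁻¹)⁻¹ * g ∈ B := by
      rw [e1]
      exact mul_mem ht hb
    refine ⟨n * u * n⁻¹, ?_, ?_, hB⟩
    · have : n * u * n⁻¹ = g * ((n * u * n⁻¹)⁻¹ * g)⁻¹ := by group
      rw [this]
      exact mul_mem hg (inv_mem (le_Par hB))
    · have : n⁻¹ * (n * u * n⁻¹) * n = u := by group
      rwa [this]
  · left
    obtain ⟨u, hu, t, htB, htN, rfl⟩ := h.split a ha
    have ht := h.norm' (mul_mem hnN hsN) htB htN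
    set d := (n⁻¹ * s)⁻¹ * t * (n⁻¹ * s) * b with hdd
    have hdB : d ∈ B := mul_mem ht hb
    have e1 : g = (n * u * n⁻¹) * s * d := by
      have : g = n * (n⁻¹ * g) := by group
      rw [this, hab, hdd]
      group
    have hyP : n * u * n⁻¹ ∈ Par B s := by
      have : n * u * n⁻¹ = g * d⁻¹ * s⁻¹ := by rw [e1]; group
      rw [this]
      exact mul_mem (mul_mem hg (inv_mem (le_Par hdB))) (inv_mem self_mem_Par)
    have h1 := h.opp_conj hr hn hopp hs hyP (by
      have : n⁻¹ * (n * u * n⁻¹) * n = u := by group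
      rwa [this])
    have e2 : s⁻¹ * g = s⁻¹ * (n * u * n⁻¹) * s * d := by rw [e1]; group
    rw [e2]
    exact mul_mem h1 hdB

/-- An automorphism that stabilizes `B`, the minimal parabolic subgroups over `B` and an opposite
chamber `n B n⁻¹`, and centralizes all `n U n⁻¹ ∩ (B ∪ B s B)`, is trivial. -/
theorem eq_one_of_roots [Finite L] (hsimple : IsSimpleGroup L) (hr : r.Prime) {f : MulAut L}
    (hB : am f B = B) (hP : ∀ s ∈ S, am f (Par B s) = Par B s) {n : L} (hn : n ∈ N)
    (hopp : ∀ x ∈ U, n * x * n⁻¹ ∈ U → x = 1) (hC : am f (cj n B) = cj n B)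
    (hX : ∀ s ∈ S, ∀ y ∈ Par B s, n⁻¹ * y * n ∈ U → f y = y) : f = 1 := by
  have hBm : ∀ x ∈ B, f x ∈ B := fun x hx => by
    have := apply_mem_am (f := f) hx
    rwa [hB] at this
  have hPm : ∀ s ∈ S, ∀ x ∈ Par B s, f x ∈ Par B s := fun s hs x hx => by
    have := apply_mem_am (f := f) hx
    rwa [hP s hs] at this
  have hfn : n⁻¹ * f n ∈ B := by
    rw [am_cj, hB, eq_comm, h.cj_B_eq_iff hr] at hC
    exact hC
  have hap := h.apart hr hBm hPm hn hopp hfn
  -- the root subgroups `X_s`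
  have hXfix : ∀ s ∈ S, ∀ x ∈ U, n⁻¹ * (s * x * s⁻¹) * n ∈ U → f x = x := by
    intro s hs x hx hxn
    have hsN := h.sub s hs
    by_cases hx1 : s⁻¹ * x * s ∈ B
    · have h1 : s * x * s⁻¹ ∈ B := by
        have : s * x * s⁻¹ = (s * s) * (s⁻¹ * x * s) * (s * s)⁻¹ := by group
        rw [this]
        exact mul_mem (mul_mem (h.sq s hs) hx1) (inv_mem (h.sq s hs))
      have h2 := h.conj_U hr hx h1
      have h3 := opp_inv hopp _ h2 (by rwa [inv_inv])
      have h4 : x = 1 := by
        have : x = s⁻¹ * (s * x * s⁻¹) * s := by group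
        rw [this, h3]
        group
      rw [h4, map_one]
    · rcases h.panel hr hn hopp hs (g := x * s) (mul_mem (le_Par (h.le hx)) self_mem_Par) with h1 | h1
      · exact absurd (by rwa [← mul_assoc] at h1) hx1
      · obtain ⟨y, hyP, hyn, hyx⟩ := h1
        have hfy := hX s hs y hyP hyn
        set z := x⁻¹ * f x with hz
        have hfs := hap s hsN
        set b := y⁻¹ * (x * s) with hb
        have h2 : s⁻¹ * z * s ∈ B := by
          have e1 : y * f b = f x * f s := by
            rw [← hfy, ← map_mul, ← map_mul, hb]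
            congr 1
            group
          have e2 : s⁻¹ * z * s = b⁻¹ * f b * (s⁻¹ * f s)⁻¹ := by
            have : b⁻¹ * f b = (x * s)⁻¹ * (y * f b) := by rw [hb]; group
            rw [this, e1, hz]
            group
          rw [e2]
          exact mul_mem (mul_mem (inv_mem hyx) (hBm b hyx)) (inv_mem hfs)
        -- `z` lies in `X_s`
        have hsnN : s⁻¹ * n ∈ N := mul_mem (inv_mem hsN) hn
        have hfsn := hap _ hsnN
        have hfxU : f x ∈ U := h.apply_U hr hB hx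
        have hzU : z ∈ U := mul_mem (inv_mem hx) hfxU
        have h3 : n⁻¹ * (s * f x * s⁻¹) * n ∈ U := by
          have e1 : n⁻¹ * (s * f x * s⁻¹) * n = ((s⁻¹ * n)⁻¹ * f (s⁻¹ * n)) *
              f (n⁻¹ * (s * x * s⁻¹) * n) * ((s⁻¹ * n)⁻¹ * f (s⁻¹ * n))⁻¹ := by
            simp only [map_mul, map_inv]
            group
          rw [e1]
          exact h.normal _ hfsn _ (h.apply_U hr hB hxn)
        have h4 : n⁻¹ * (s * z * s⁻¹) * n ∈ U := by
          have e1 : n⁻¹ * (s * z * s⁻¹) * n = (n⁻¹ * (s * x * s⁻¹) * n)⁻¹ *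
              (n⁻¹ * (s * f x * s⁻¹) * n) := by rw [hz]; group
          rw [e1]
          exact mul_mem (inv_mem hxn) h3
        have h5 : s * z * s⁻¹ ∈ B := by
          have : s * z * s⁻¹ = (s * s) * (s⁻¹ * z * s) * (s * s)⁻¹ := by group
          rw [this]
          exact mul_mem (mul_mem (h.sq s hs) h2) (inv_mem (h.sq s hs))
        have h6 := h.conj_U hr hzU h5
        have h7 := opp_inv hopp _ h6 (by rwa [inv_inv])
        have h8 : z = 1 := by
          have : z = s⁻¹ * (s * z * s⁻¹) * s := by group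
          rw [this, h7]
          group
        have : f x = x * z := by rw [hz]; group
        rw [this, h8, mul_one]
  -- transitivity of `X_s`
  have htr : ∀ s ∈ S, ∀ b ∈ B, ∃ x, f x = x ∧ x ∈ B ∧ (s⁻¹ * x * s ∈ B ↔ s⁻¹ * b * s ∈ B) ∧
      (x * s)⁻¹ * (b * s) ∈ B ∧ x ∈ U ∧ n⁻¹ * (s * x * s⁻¹) * n ∈ U := by
    intro s hs b hb
    obtain ⟨x, hx, hxn, hxb⟩ := h.transit hr (mul_mem (inv_mem hn) (h.sub s hs)) hs hb
      (h.rg_opp hr hn hopp hs)
    have h1 : n⁻¹ * (s * x * s⁻¹) * n ∈ U := by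
      have : n⁻¹ * s * x * (n⁻¹ * s)⁻¹ = n⁻¹ * (s * x * s⁻¹) * n := by group
      rwa [this] at hxn
    refine ⟨x, hXfix s hs x hx h1, h.le hx, ?_, hxb, hx, h1⟩
    have e1 : s⁻¹ * b * s = (s⁻¹ * x * s) * ((x * s)⁻¹ * (b * s)) := by group
    rw [e1]
    exact (mul_mem_cancel_right hxb).symm
  -- a fixed element of `s B`
  have hgs : ∀ s ∈ S, ∃ c ∈ B, f (s * c) = s * c := by
    intro s hs
    obtain ⟨b, hb, hbs⟩ := h.thick s hs
    obtain ⟨x, hfx, hxB, hiff, -, hxU, hxn⟩ := htr s hs b hb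
    have hxs : s⁻¹ * x * s ∉ B := fun hcon => hbs (hiff.1 hcon)
    rcases h.panel hr hn hopp hs (g := x * s) (mul_mem (le_Par hxB) self_mem_Par) with h1 | h1
    · exact absurd (by rwa [← mul_assoc] at h1) hxs
    · obtain ⟨y, hyP, hyn, hyx⟩ := h1
      have hfy := hX s hs y hyP hyn
      refine ⟨(y⁻¹ * (x * s))⁻¹, inv_mem hyx, ?_⟩
      have e1 : s * (y⁻¹ * (x * s))⁻¹ = x⁻¹ * y := by group
      rw [e1, map_mul, map_inv, hfx, hfy]
  -- every chamber is the image of `B` under a fixed element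
  let Hf : L → Prop := fun g => ∃ x, f x = x ∧ x⁻¹ * g ∈ B
  have hstep : ∀ s ∈ S, ∀ b ∈ B, Hf (b * s) := by
    intro s hs b hb
    obtain ⟨x, hfx, hxB, -, hxb, -, -⟩ := htr s hs b hb
    obtain ⟨c, hc, hfc⟩ := hgs s hs
    refine ⟨x * (s * c), by rw [map_mul, hfx, hfc], ?_⟩
    have : (x * (s * c))⁻¹ * (b * s) = c⁻¹ * ((x * s)⁻¹ * (b * s)) := by group
    rw [this]
    exact mul_mem (inv_mem hc) hxb
  have hK : ∀ g : L, ∀ b ∈ B, Hf (b * g) := by
    intro g
    have hg : g ∈ closure ((B : Set L) ∪ S) := by rw [h.closure_top]; exact mem_top g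
    induction hg using closure_induction_right with
    | one => exact fun b hb => ⟨1, map_one _, by simpa using hb⟩
    | mul_right x hx y hy ih =>
      intro b hb
      obtain ⟨u, hfu, hu⟩ := ih b hb
      rcases hy with hy | hy
      · exact ⟨u, hfu, by
          have : u⁻¹ * (b * (x * y)) = u⁻¹ * (b * x) * y := by group
          rw [this]
          exact mul_mem hu hy⟩
      · obtain ⟨v, hfv, hv⟩ := hstep y hy _ hu
        refine ⟨u * v, by rw [map_mul, hfu, hfv], ?_⟩
        have : (u * v)⁻¹ * (b * (x * y)) = v⁻¹ * (u⁻¹ * (b * x) * y) := by group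
        rw [this]
        exact hv
    | mul_inv_cancel x hx y hy ih =>
      intro b hb
      obtain ⟨u, hfu, hu⟩ := ih b hb
      rcases hy with hy | hy
      · exact ⟨u, hfu, by
          have : u⁻¹ * (b * (x * y⁻¹)) = u⁻¹ * (b * x) * y⁻¹ := by group
          rw [this]
          exact mul_mem hu (inv_mem hy)⟩
      · obtain ⟨v, hfv, hv⟩ := hstep y hy _ hu
        refine ⟨u * v, by rw [map_mul, hfu, hfv], ?_⟩
        have : (u * v)⁻¹ * (b * (x * y⁻¹)) = v⁻¹ * (u⁻¹ * (b * x) * y) * (y⁻¹ * y⁻¹) := by group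
        rw [this]
        exact mul_mem hv (h.inv_mul hy)
  refine h.eq_one_of_all hsimple fun g => ?_
  obtain ⟨x, hfx, hxg⟩ := hK g 1 (one_mem _)
  rw [one_mul] at hxg
  have e1 : g⁻¹ * f g = (x⁻¹ * g)⁻¹ * f (x⁻¹ * g) := by
    rw [map_mul, map_inv, hfx]; group
  rw [e1]
  exact mul_mem (inv_mem hxg) (hBm _ hxg)

end SB

end

end Vale.Agent.P240.H195
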