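import Mathlib

namespace Vale.Agent.P240.R2.H195

open Module

theorem ten {X Y : Type*} (A : Submodule ℚ (X → ℚ)) (B : Submodule ℚ (Y → ℚ))
    [FiniteDimensional ℚ A] [FiniteDimensional ℚ B] (C : Submodule ℚ (X → Y → ℚ))
    (h1 : ∀ f ∈ C, ∀ y, (fun x => f x y) ∈ A) (h2 : ∀ f ∈ C, ∀ x, f x ∈ B) :
    FiniteDimensional ℚ C ∧ finrank ℚ C ≤ finrank ℚ A * finrank ℚ B := by
  classical
  let b := Module.finBasis ℚ A
  let co : C → Fin (finrank ℚ A) → Y → ℚ :=
    fun f i y => b.repr ⟨fun x => f.1 x y, h1 f.1 f.2 y⟩ i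
  have hexp : ∀ (f : C) (x : X) (y : Y), f.1 x y = ∑ i, co f i y * (b i : X → ℚ) x := by
    intro f x y
    have h := congrArg (fun a : A => (a : X → ℚ) x)
      (b.sum_repr ⟨fun x => f.1 x y, h1 f.1 f.2 y⟩)
    simp only [Submodule.coe_sum, Submodule.coe_smul, Finset.sum_apply, Pi.smul_apply,
      smul_eq_mul] at h
    exact h.symm
  have hli : LinearIndependent ℚ (fun i => (b i : X → ℚ)) :=
    b.linearIndependent.map' A.subtype (Submodule.ker_subtype A)
  have hco : ∀ (f : C) (i), co f i ∈ B := by
    intro f i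
    rw [← Submodule.Quotient.mk_eq_zero B, ← Module.forall_dual_apply_eq_zero_iff ℚ]
    intro ψ
    have hz : ∑ j, ψ (Submodule.Quotient.mk (co f j)) • (b j : X → ℚ) = 0 := by
      funext x
      have hx : (f.1 x : Y → ℚ) = ∑ j, (b j : X → ℚ) x • co f j := by
        funext y
        rw [hexp f x y]
        simp [Finset.sum_apply, mul_comm]
      have h0 : ψ (B.mkQ (f.1 x)) = 0 := by
        have : B.mkQ (f.1 x) = 0 := by
          rw [Submodule.mkQ_apply, Submodule.Quotient.mk_eq_zero]
          exact h2 f.1 f.2 x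
        rw [this, map_zero]
      rw [hx, map_sum, map_sum] at h0
      simp only [map_smul, smul_eq_mul] at h0
      simp only [Finset.sum_apply, Pi.smul_apply, smul_eq_mul, Pi.zero_apply]
      rw [← h0]
      refine Finset.sum_congr rfl fun j _ => ?_
      rw [mul_comm]
      rfl
    exact (Fintype.linearIndependent_iff.1 hli) _ hz i
  let Φ : C →ₗ[ℚ] (Fin (finrank ℚ A) → B) :=
    { toFun := fun f i => ⟨co f i, hco f i⟩
      map_add' := by
        intro f g
        funext i
        apply Subtype.ext
        funext y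
        change b.repr ⟨fun x => (f + g).1 x y, _⟩ i = _
        have : (⟨fun x => (f + g).1 x y, h1 (f + g).1 (f + g).2 y⟩ : A) =
            ⟨fun x => f.1 x y, h1 f.1 f.2 y⟩ + ⟨fun x => g.1 x y, h1 g.1 g.2 y⟩ := rfl
        rw [this, map_add]
        rfl
      map_smul' := by
        intro c f
        funext i
        apply Subtype.ext
        funext y
        change b.repr ⟨fun x => (c • f).1 x y, _⟩ i = _
        have : (⟨fun x => (c • f).1 x y, h1 (c • f).1 (c • f).2 y⟩ : A) =
            c • ⟨fun x => f.1 x y, h1 f.1 f.2 y⟩ := rfl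
        rw [this, map_smul]
        rfl }
  have hinj : Function.Injective Φ := by
    rw [injective_iff_map_eq_zero]
    intro f hf
    apply Subtype.ext
    funext x y
    rw [hexp f x y]
    have : ∀ i, co f i y = 0 := by
      intro i
      have h := congrFun (congrArg Subtype.val (congrFun hf i)) y
      exact h
    simp [this]
  refine ⟨FiniteDimensional.of_injective Φ hinj, ?_⟩
  have h := LinearMap.finrank_le_finrank_of_injective hinj
  rwa [Module.finrank_pi_fintype, Finset.sum_const, Finset.card_univ, Fintype.card_fin,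
    smul_eq_mul] at h

end Vale.Agent.P240.R2.H195
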